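import Mathlib

/-!
P176.  The presented algebra `Alg K`, its representations by operators, and module categories.
-/

namespace Vale.Agent.P176

open CategoryTheory

universe u

/-- Generators: level idempotents `e j`, four odd generators `x i j`, one odd generator `t`,
two lowering operators `a m`, two level-preserving operators `b m`. -/
inductive Gen : Type
  | e (j : ℤ) : Gen
  | x (i j : Fin 2) : Gen
  | t : Gen
  | a (m : Fin 2) : Gen
  | b (m : Fin 2) : Gen

/-- The operators of a (windowed) graded module over the algebra generated by `x i j`, `t`. -/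
structure BRep (K : Type u) [Field K] (M : Type u) [AddCommGroup M] [Module K M] where
  E : ℤ → M →ₗ[K] M
  X : Fin 2 → Fin 2 → M →ₗ[K] M
  T : M →ₗ[K] M
  E_self : ∀ j v, E j (E j v) = E j v
  E_ne : ∀ i j, i ≠ j → ∀ v, E i (E j v) = 0
  E_out : ∀ j, (j < 0 ∨ 5 < j) → ∀ v, E j v = 0
  E_sum : ∀ v, ∑ j ∈ Finset.Icc (0 : ℤ) 5, E j v = v
  XE : ∀ i j k v, X i j (E k v) = E (k + 1) (X i j v)
  TE : ∀ k v, T (E k v) = E (k + 1) (T v)
  XX : ∀ i j k l v, X i j (X k l v) = - X k l (X i j v)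
  TT : ∀ v, T (T v) = 0
  TX : ∀ i j v, T (X i j v) = - X i j (T v) - ∑ k, X i k (X k j v)

/-- The operators of a module over `Alg K`. -/
structure Rep (K : Type u) [Field K] (M : Type u) [AddCommGroup M] [Module K M] extends
    BRep K M where
  A : Fin 2 → M →ₗ[K] M
  B : Fin 2 → M →ₗ[K] M
  AE : ∀ m k v, A m (E k v) = E (k - 1) (A m v)
  BE : ∀ m k v, B m (E k v) = E k (B m v)
  XA : ∀ i j m v, X i j (A m v) =
    A m (X i j v) + (if i = j then B m v else 0) - (if j = m then B i v else 0)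
  XB : ∀ i j m v, X i j (B m v) = - B m (X i j v)
  TA : ∀ m v, T (A m v) = A m (T v) - ∑ l, A l (X m l v)
  TB : ∀ m v, T (B m v) = - B m (T v) + ∑ l, B l (X m l v)
  AA : ∀ m l v, A m (A l v) = 0
  AB : ∀ m l v, A m (B l v) = 0
  BA : ∀ m l v, B m (A l v) = 0
  BB : ∀ m l v, B m (B l v) = 0
  BE0 : ∀ m v, B m (E 0 v) = 0

section Alg

variable (K : Type u) [Field K]

open FreeAlgebra in
/-- The defining relations. -/
inductive Rel : FreeAlgebra K Gen → FreeAlgebra K Gen → Prop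
  | E_self (j : ℤ) : Rel (ι K (Gen.e j) * ι K (Gen.e j)) (ι K (Gen.e j))
  | E_ne (i j : ℤ) (h : i ≠ j) : Rel (ι K (Gen.e i) * ι K (Gen.e j)) 0
  | E_out (j : ℤ) (h : j < 0 ∨ 5 < j) : Rel (ι K (Gen.e j)) 0
  | E_sum : Rel (∑ j ∈ Finset.Icc (0 : ℤ) 5, ι K (Gen.e j)) 1
  | XE (i j : Fin 2) (k : ℤ) :
      Rel (ι K (Gen.x i j) * ι K (Gen.e k)) (ι K (Gen.e (k + 1)) * ι K (Gen.x i j))
  | TE (k : ℤ) : Rel (ι K Gen.t * ι K (Gen.e k)) (ι K (Gen.e (k + 1)) * ι K Gen.t)
  | XX (i j k l : Fin 2) :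
      Rel (ι K (Gen.x i j) * ι K (Gen.x k l)) (-(ι K (Gen.x k l) * ι K (Gen.x i j)))
  | TT : Rel (ι K Gen.t * ι K Gen.t) 0
  | TX (i j : Fin 2) : Rel (ι K Gen.t * ι K (Gen.x i j))
      (-(ι K (Gen.x i j) * ι K Gen.t) - ∑ k, ι K (Gen.x i k) * ι K (Gen.x k j))
  | AE (m : Fin 2) (k : ℤ) :
      Rel (ι K (Gen.a m) * ι K (Gen.e k)) (ι K (Gen.e (k - 1)) * ι K (Gen.a m))
  | BE (m : Fin 2) (k : ℤ) :
      Rel (ι K (Gen.b m) * ι K (Gen.e k)) (ι K (Gen.e k) * ι K (Gen.b m))
  | XA (i j m : Fin 2) : Rel (ι K (Gen.x i j) * ι K (Gen.a m))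
      (ι K (Gen.a m) * ι K (Gen.x i j) + (if i = j then ι K (Gen.b m) else 0)
        - (if j = m then ι K (Gen.b i) else 0))
  | XB (i j m : Fin 2) :
      Rel (ι K (Gen.x i j) * ι K (Gen.b m)) (-(ι K (Gen.b m) * ι K (Gen.x i j)))
  | TA (m : Fin 2) : Rel (ι K Gen.t * ι K (Gen.a m))
      (ι K (Gen.a m) * ι K Gen.t - ∑ l, ι K (Gen.a l) * ι K (Gen.x m l))
  | TB (m : Fin 2) : Rel (ι K Gen.t * ι K (Gen.b m))
      (-(ι K (Gen.b m) * ι K Gen.t) + ∑ l, ι K (Gen.b l) * ι K (Gen.x m l))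
  | AA (m l : Fin 2) : Rel (ι K (Gen.a m) * ι K (Gen.a l)) 0
  | AB (m l : Fin 2) : Rel (ι K (Gen.a m) * ι K (Gen.b l)) 0
  | BA (m l : Fin 2) : Rel (ι K (Gen.b m) * ι K (Gen.a l)) 0
  | BB (m l : Fin 2) : Rel (ι K (Gen.b m) * ι K (Gen.b l)) 0
  | BE0 (m : Fin 2) : Rel (ι K (Gen.b m) * ι K (Gen.e 0)) 0

/-- The presented algebra. -/
def Alg : Type u := RingQuot (Rel K)

noncomputable instance : Ring (Alg K) := inferInstanceAs (Ring (RingQuot (Rel K)))

noncomputable instance : Algebra K (Alg K) := inferInstanceAs (Algebra K (RingQuot (Rel K)))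

/-- The quotient map from the free algebra. -/
noncomputable def quo : FreeAlgebra K Gen →ₐ[K] Alg K := RingQuot.mkAlgHom K (Rel K)

/-- The generators as elements of the presented algebra. -/
noncomputable def gen (g : Gen) : Alg K := quo K (FreeAlgebra.ι K g)

variable {K}

lemma quo_surjective : Function.Surjective (quo K) := RingQuot.mkAlgHom_surjective K (Rel K)

lemma quo_rel {x y : FreeAlgebra K Gen} (h : Rel K x y) : quo K x = quo K y :=
  RingQuot.mkAlgHom_rel K h

@[elab_as_elim]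
lemma Alg.induct {P : Alg K → Prop} (hK : ∀ c : K, P (algebraMap K (Alg K) c))
    (hg : ∀ g, P (gen K g)) (hadd : ∀ x y, P x → P y → P (x + y))
    (hmul : ∀ x y, P x → P y → P (x * y)) (a : Alg K) : P a := by
  obtain ⟨a, rfl⟩ := quo_surjective a
  induction a using FreeAlgebra.induction with
  | grade0 r => simpa using hK r
  | grade1 g => exact hg g
  | mul x y hx hy => rw [map_mul]; exact hmul _ _ hx hy
  | add x y hx hy => rw [map_add]; exact hadd _ _ hx hy

end Alg

namespace Rep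

variable {K : Type u} [Field K] {M : Type u} [AddCommGroup M] [Module K M]

/-- The operator of a generator. -/
def op (ρ : Rep K M) : Gen → Module.End K M
  | Gen.e j => ρ.E j
  | Gen.x i j => ρ.X i j
  | Gen.t => ρ.T
  | Gen.a m => ρ.A m
  | Gen.b m => ρ.B m

lemma op_rel (ρ : Rep K M) ⦃x y : FreeAlgebra K Gen⦄ (h : Rel K x y) :
    FreeAlgebra.lift K ρ.op x = FreeAlgebra.lift K ρ.op y := by
  induction h with
  | E_self j => ext v; simpa [op] using ρ.E_self j v
  | E_ne i j h => ext v; simpa [op] using ρ.E_ne i j h v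
  | E_out j h => ext v; simpa [op] using ρ.E_out j h v
  | E_sum => ext v; simpa [op, -map_sum, map_sum (FreeAlgebra.lift K ρ.op)] using ρ.E_sum v
  | XE i j k => ext v; simpa [op] using ρ.XE i j k v
  | TE k => ext v; simpa [op] using ρ.TE k v
  | XX i j k l => ext v; simpa [op] using ρ.XX i j k l v
  | TT => ext v; simpa [op] using ρ.TT v
  | TX i j => ext v; simpa [op] using ρ.TX i j v
  | AE m k => ext v; simpa [op] using ρ.AE m k v
  | BE m k => ext v; simpa [op] using ρ.BE m k v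
  | XA i j m =>
    ext v
    have := ρ.XA i j m v
    split_ifs at this ⊢ <;> simpa [op] using this
  | XB i j m => ext v; simpa [op] using ρ.XB i j m v
  | TA m => ext v; simpa [op] using ρ.TA m v
  | TB m => ext v; simpa [op] using ρ.TB m v
  | AA m l => ext v; simpa [op] using ρ.AA m l v
  | AB m l => ext v; simpa [op] using ρ.AB m l v
  | BA m l => ext v; simpa [op] using ρ.BA m l v
  | BB m l => ext v; simpa [op] using ρ.BB m l v
  | BE0 m => ext v; simpa [op] using ρ.BE0 m v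

/-- The algebra homomorphism attached to a representation. -/
noncomputable def hom (ρ : Rep K M) : Alg K →ₐ[K] Module.End K M :=
  RingQuot.liftAlgHom K ⟨FreeAlgebra.lift K ρ.op, ρ.op_rel⟩

@[simp] lemma hom_gen (ρ : Rep K M) (g : Gen) : ρ.hom (gen K g) = ρ.op g := by
  unfold hom gen quo
  erw [RingQuot.liftAlgHom_mkAlgHom_apply]
  simp

end Rep

end Vale.Agent.P176
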