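import Vale.Agent.P176.Ind

/-!
P176.  One-dimensional representations and the class `Good`.
-/

namespace Vale.Agent.P176

open CategoryTheory

universe u

/-- The one-dimensional representation concentrated in level `i`. -/
def triv (K : Type u) [Field K] (i : ℤ) (hi : 0 ≤ i ∧ i ≤ 5) : BRep K K where
  E j := if j = i then LinearMap.id else 0
  X _ _ := 0
  T := 0
  E_self j v := by split_ifs <;> simp
  E_ne i' j h v := by
    by_cases h1 : i' = i
    · have h2 : j ≠ i := fun h3 => h (h1.trans h3.symm)
      simp [h2]
    · simp [h1]
  E_out j h v := by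
    have : j ≠ i := by omega
    simp [this]
  E_sum v := by
    rw [sum_Icc05]
    obtain ⟨h1, h2⟩ := hi
    interval_cases i <;> simp
  XE _ _ _ _ := by simp
  TE _ _ := by simp
  XX _ _ _ _ _ := by simp
  TT _ := by simp
  TX _ _ _ := by simp

/-- The one-dimensional module in level `0`. -/
noncomputable def S0 (K : Type u) [Field K] : ModuleCat.{u} (Alg K) :=
  (triv K 0 (by norm_num)).toRep.mod

/-- Modules of projective dimension `< k` all of whose extension groups with `S0` vanish. -/
structure Good {K : Type u} [Field K] (k : ℕ) (X : ModuleCat.{u} (Alg K)) : Prop where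
  pd : HasProjectiveDimensionLT X k
  ext : ∀ (n : ℕ) (e : Abelian.Ext X (S0 K) n), e = 0

end Vale.Agent.P176
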