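import Mathlib

/-!
P176.  The exterior algebra on four generators with its Chevalley-Eilenberg type operator.
-/

namespace Vale.Agent.P176

universe u

/-- The exterior algebra on the generators indexed by `Fin 2 × Fin 2`. -/
abbrev RR (K : Type u) [Field K] : Type u := ExteriorAlgebra K (Fin 2 × Fin 2 → K)

variable {K : Type u} [Field K]

/-- Left multiplication by a generator. -/
noncomputable def xi (i j : Fin 2) : RR K →ₗ[K] RR K :=
  LinearMap.mulLeft K (ExteriorAlgebra.ι K (Pi.single (i, j) 1))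

/-- Contraction with a dual generator. -/
noncomputable def del (i j : Fin 2) : RR K →ₗ[K] RR K :=
  CliffordAlgebra.contractLeft (Q := (0 : QuadraticForm K (Fin 2 × Fin 2 → K)))
    (LinearMap.proj (i, j))

lemma xi_apply (i j : Fin 2) (r : RR K) :
    xi i j r = ExteriorAlgebra.ι K (Pi.single (i, j) 1) * r := rfl

lemma RR_top (S : Submodule K (RR K)) (h1 : (1 : RR K) ∈ S)
    (hx : ∀ i j r, r ∈ S → xi i j r ∈ S) (r : RR K) : r ∈ S := by
  induction r using CliffordAlgebra.left_induction with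
  | algebraMap c =>
    rw [Algebra.algebraMap_eq_smul_one]
    exact S.smul_mem c h1
  | add x y hx hy => exact S.add_mem hx hy
  | ι_mul x m hx' =>
    have hm : m = ∑ p : Fin 2 × Fin 2, m p • (Pi.single p (1 : K) : Fin 2 × Fin 2 → K) := by
      ext q
      simp [Finset.sum_apply, Pi.single_apply]
    rw [hm, map_sum, Finset.sum_mul]
    refine S.sum_mem fun p _ => ?_
    rw [map_smul, smul_mul_assoc]
    exact S.smul_mem _ (hx p.1 p.2 x hx')

/-- Equality of linear maps on the exterior algebra. -/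
lemma RR_ext {Y : Type*} [AddCommGroup Y] [Module K Y] (f g : RR K →ₗ[K] Y)
    (h1 : f 1 = g 1) (hx : ∀ i j r, f r = g r → f (xi i j r) = g (xi i j r)) (r : RR K) :
    f r = g r :=
  RR_top (LinearMap.eqLocus f g) h1 (fun i j r h => hx i j r h) r

lemma xi_xi (i j k l : Fin 2) (r : RR K) : xi i j (xi k l r) = - xi k l (xi i j r) := by
  simp only [xi_apply, ← mul_assoc]
  have := ExteriorAlgebra.ι_add_mul_swap (R := K)
    (Pi.single (i, j) (1 : K) : Fin 2 × Fin 2 → K) (Pi.single (k, l) (1 : K))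
  rw [← neg_mul]
  congr 1
  exact eq_neg_of_add_eq_zero_left this

lemma del_xi (i j k l : Fin 2) (r : RR K) :
    del i j (xi k l r) = (if i = k ∧ j = l then r else 0) - xi k l (del i j r) := by
  unfold del
  rw [xi_apply]
  erw [CliffordAlgebra.contractLeft_ι_mul]
  rw [xi_apply]
  congr 1
  simp only [LinearMap.proj_apply, Pi.single_apply, Prod.mk.injEq]
  split_ifs <;> simp

lemma del_one (i j : Fin 2) : del i j (1 : RR K) = 0 := by
  unfold del
  exact CliffordAlgebra.contractLeft_one _ _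

/-- The quadratic operator `∑ k, ξ_{ik} ξ_{kj}`. -/
noncomputable def qq (i j : Fin 2) : RR K →ₗ[K] RR K := ∑ k, xi i k ∘ₗ xi k j

lemma qq_apply (i j : Fin 2) (r : RR K) : qq i j r = ∑ k, xi i k (xi k j r) := by
  simp [qq]

/-- The differential. -/
noncomputable def dR : RR K →ₗ[K] RR K :=
  - ∑ i, ∑ j, (qq i j ∘ₗ del i j : RR K →ₗ[K] RR K)

lemma dR_apply (r : RR K) : dR r = - ∑ i, ∑ j, qq i j (del i j r) := by
  simp [dR]

lemma dR_one : dR (1 : RR K) = 0 := by
  simp [dR_apply, del_one]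

lemma qq_xi (i j k l : Fin 2) (r : RR K) : qq i j (xi k l r) = xi k l (qq i j r) := by
  simp only [qq_apply, map_sum]
  refine Finset.sum_congr rfl fun m _ => ?_
  rw [xi_xi m j k l, map_neg, xi_xi i m k l, neg_neg]

lemma dR_xi (a b : Fin 2) (r : RR K) : dR (xi a b r) = - xi a b (dR r) - qq a b r := by
  have h : ∀ i j, qq i j (del i j (xi a b r)) =
      (if i = a ∧ j = b then qq i j r else 0) - xi a b (qq i j (del i j r)) := by
    intro i j
    rw [del_xi, map_sub, qq_xi]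
    congr 1
    split_ifs <;> simp
  rw [dR_apply, dR_apply]
  simp only [h, Finset.sum_sub_distrib, map_neg, map_sum]
  have h2 : ∑ i, ∑ j, (if i = a ∧ j = b then qq i j r else 0) = qq a b r := by
    fin_cases a <;> fin_cases b <;> simp [Fin.sum_univ_two]
  rw [h2]
  abel

lemma dR_dR (r : RR K) : dR (dR r) = 0 := by
  refine RR_ext (dR ∘ₗ dR) 0 ?_ ?_ r
  · simp [dR_one]
  · intro a b r hr
    simp only [LinearMap.comp_apply, LinearMap.zero_apply] at hr ⊢
    rw [dR_xi, map_sub, map_neg, dR_xi, hr, map_zero]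
    have h : dR (qq a b r) = qq a b (dR r) := by
      simp only [qq_apply, dR_xi, map_sub, map_neg, Fin.sum_univ_two, map_add]
      abel
    rw [h]
    simp

/-- The degree projections. -/
noncomputable def pr (j : ℤ) : RR K →ₗ[K] RR K :=
  if 0 ≤ j then GradedAlgebra.proj (fun i : ℕ => ⋀[K]^i (Fin 2 × Fin 2 → K)) j.toNat else 0

lemma pr_nat (n : ℕ) (r : RR K) :
    pr (n : ℤ) r = (DirectSum.decompose (fun i : ℕ => ⋀[K]^i (Fin 2 × Fin 2 → K)) r n : RR K) := by
  simp [pr]

lemma pr_neg (j : ℤ) (h : j < 0) : (pr j : RR K →ₗ[K] RR K) = 0 := by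
  simp [pr, not_le.2 h]

lemma iota_mem (w : Fin 2 × Fin 2 → K) :
    ExteriorAlgebra.ι K w ∈ ⋀[K]^1 (Fin 2 × Fin 2 → K) := by
  have h : (⋀[K]^1 (Fin 2 × Fin 2 → K)) = LinearMap.range (ExteriorAlgebra.ι K) :=
    pow_one _
  rw [h]
  exact LinearMap.mem_range_self _ w

lemma pr_xi (k : ℤ) (i j : Fin 2) (r : RR K) : pr (k + 1) (xi i j r) = xi i j (pr k r) := by
  rcases lt_trichotomy k (-1) with h | h | h
  · rw [pr_neg _ (by omega), pr_neg _ (by omega)]; simp
  · subst h
    rw [pr_neg (-1) (by omega)]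
    have : ((-1 : ℤ) + 1) = ((0 : ℕ) : ℤ) := by norm_num
    rw [this, pr_nat, xi_apply, DirectSum.coe_decompose_mul_of_left_mem_of_not_le
      (fun i : ℕ => ⋀[K]^i (Fin 2 × Fin 2 → K))
      (iota_mem _) (by norm_num)]
    simp
  · obtain ⟨n, rfl⟩ : ∃ n : ℕ, k = n := ⟨k.toNat, by omega⟩
    have : ((n : ℤ) + 1) = ((1 + n : ℕ) : ℤ) := by push_cast; ring
    rw [this, pr_nat, pr_nat, xi_apply, DirectSum.coe_decompose_mul_add_of_left_mem
      (fun i : ℕ => ⋀[K]^i (Fin 2 × Fin 2 → K))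
      (iota_mem _), xi_apply]

lemma pr_one (k : ℤ) : pr k (1 : RR K) = if k = 0 then 1 else 0 := by
  rcases lt_or_ge k 0 with h | h
  · rw [pr_neg _ h]; simp; omega
  · obtain ⟨n, rfl⟩ : ∃ n : ℕ, k = n := ⟨k.toNat, by omega⟩
    rw [pr_nat]
    have h1 : (1 : RR K) ∈ ⋀[K]^0 (Fin 2 × Fin 2 → K) := SetLike.GradedOne.one_mem
    by_cases hn : n = 0
    · subst hn
      rw [DirectSum.decompose_of_mem_same (fun i : ℕ => ⋀[K]^i (Fin 2 × Fin 2 → K)) h1]; simp
    · rw [DirectSum.decompose_of_mem_ne (fun i : ℕ => ⋀[K]^i (Fin 2 × Fin 2 → K)) h1 (Ne.symm hn)]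
      simp [hn]

lemma ext_eq_bot (n : ℕ) (h : 4 < n) : (⋀[K]^n (Fin 2 × Fin 2 → K)) = ⊥ := by
  have h1 := exteriorPower.finrank_eq (R := K) (M := Fin 2 × Fin 2 → K) (n := n)
  rw [Module.finrank_fintype_fun_eq_card, Nat.choose_eq_zero_of_lt (by simpa using h)] at h1
  exact Submodule.finrank_eq_zero.1 h1

lemma pr_out (j : ℤ) (h : j < 0 ∨ 4 < j) : (pr j : RR K →ₗ[K] RR K) = 0 := by
  rcases h with h | h
  · exact pr_neg j h
  · obtain ⟨n, rfl⟩ : ∃ n : ℕ, j = n := ⟨j.toNat, by omega⟩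
    refine LinearMap.ext fun r => ?_
    rw [pr_nat]
    have h1 := (DirectSum.decompose (fun i : ℕ => ⋀[K]^i (Fin 2 × Fin 2 → K)) r n).2
    have h2 := ext_eq_bot (K := K) n (by omega)
    have h3 := h2.le h1
    simpa using h3

lemma pr_self (j : ℤ) (r : RR K) : pr j (pr j r) = pr j r := by
  rcases lt_or_ge j 0 with h | h
  · rw [pr_neg _ h]; simp
  · obtain ⟨n, rfl⟩ : ∃ n : ℕ, j = n := ⟨j.toNat, by omega⟩
    rw [pr_nat, pr_nat, DirectSum.decompose_of_mem_same (fun i : ℕ => ⋀[K]^i (Fin 2 × Fin 2 → K)) (SetLike.coe_mem _)]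

lemma pr_ne (i j : ℤ) (hij : i ≠ j) (r : RR K) : pr i (pr j r) = 0 := by
  rcases lt_or_ge j 0 with h | h
  · rw [pr_neg j h]; simp
  rcases lt_or_ge i 0 with h' | h'
  · rw [pr_neg i h']; simp
  · obtain ⟨n, rfl⟩ : ∃ n : ℕ, j = n := ⟨j.toNat, by omega⟩
    obtain ⟨m, rfl⟩ : ∃ m : ℕ, i = m := ⟨i.toNat, by omega⟩
    rw [pr_nat, pr_nat, DirectSum.decompose_of_mem_ne (fun i : ℕ => ⋀[K]^i (Fin 2 × Fin 2 → K)) (SetLike.coe_mem _)]
    intro h
    exact hij (by rw [h])

lemma pr_sum (r : RR K) : pr 0 r + (pr 1 r + (pr 2 r + (pr 3 r + pr 4 r))) = r := by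
  refine RR_ext (pr 0 + (pr 1 + (pr 2 + (pr 3 + pr 4)))) LinearMap.id ?_ ?_ r
  · simp [pr_one]
  · intro i j r h
    simp only [LinearMap.add_apply, LinearMap.id_apply] at h ⊢
    have h0 : pr 0 (xi i j r) = 0 := by
      have := pr_xi (K := K) (-1) i j r
      rw [pr_neg (-1) (by norm_num)] at this
      simpa using this
    have h1 : pr 1 (xi i j r) = xi i j (pr 0 r) := by simpa using pr_xi (K := K) 0 i j r
    have h2 : pr 2 (xi i j r) = xi i j (pr 1 r) := by simpa using pr_xi (K := K) 1 i j r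
    have h3 : pr 3 (xi i j r) = xi i j (pr 2 r) := by simpa using pr_xi (K := K) 2 i j r
    have h4 : pr 4 (xi i j r) = xi i j (pr 3 r) := by simpa using pr_xi (K := K) 3 i j r
    have h5 : xi i j (pr 4 r) = 0 := by
      rw [← pr_xi, pr_out _ (by norm_num)]; simp
    rw [h0, h1, h2, h3, h4]
    conv_rhs => rw [← h]
    simp [h5]

lemma pr_xi' (k : ℤ) (i j : Fin 2) (r : RR K) : pr k (xi i j r) = xi i j (pr (k - 1) r) := by
  rw [← pr_xi, sub_add_cancel]

lemma pr_qq (k : ℤ) (i j : Fin 2) (r : RR K) : pr k (qq i j r) = qq i j (pr (k - 2) r) := by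
  simp only [qq_apply, map_sum, pr_xi']
  refine Finset.sum_congr rfl fun m _ => ?_
  congr 4
  ring

lemma pr_dR (k : ℤ) (r : RR K) : pr k (dR r) = dR (pr (k - 1) r) := by
  let S : Submodule K (RR K) :=
    { carrier := {r | ∀ k, pr k (dR r) = dR (pr (k - 1) r)}
      add_mem' := fun {a b} ha hb k => by simp [ha k, hb k]
      zero_mem' := fun k => by simp
      smul_mem' := fun c a ha k => by simp [ha k] }
  refine RR_top S ?_ ?_ r k
  · intro k
    rw [dR_one, map_zero, pr_one]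
    split_ifs <;> simp [dR_one]
  · intro i j r hr k
    rw [dR_xi, map_sub, map_neg, pr_xi', hr, pr_qq, pr_xi', dR_xi]
    congr 4
    ring

lemma pr_del (k : ℤ) (i j : Fin 2) (r : RR K) : pr k (del i j r) = del i j (pr (k + 1) r) := by
  let S : Submodule K (RR K) :=
    { carrier := {r | ∀ k, pr k (del i j r) = del i j (pr (k + 1) r)}
      add_mem' := fun {a b} ha hb k => by simp [ha k, hb k]
      zero_mem' := fun k => by simp
      smul_mem' := fun c a ha k => by simp [ha k] }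
  refine RR_top S ?_ ?_ r k
  · intro k
    rw [del_one, map_zero, pr_one]
    split_ifs <;> simp [del_one]
  · intro a b r hr k
    rw [del_xi, map_sub, pr_xi', hr, pr_xi', del_xi, sub_add_cancel, add_sub_cancel_right]
    congr 1
    split_ifs <;> simp

end Vale.Agent.P176
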