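import Vale.Agent.P176.Good

/-!
P176.  Finite-dimensionality of the presented algebra.
-/

namespace Vale.Agent.P176

universe u

variable (K : Type u) [Field K]

/-- The subspace generated by the idempotents under the raising operators. -/
noncomputable def cycSum : Submodule K (Alg K) := ⨆ i : Fin 6, CC K (i : ℕ)

/-- The candidate for the whole algebra. -/
noncomputable def allSum : Submodule K (Alg K) :=
  cycSum K ⊔ ((⨆ m, (cycSum K).map ((reg K).A m)) ⊔ (⨆ m, (cycSum K).map ((reg K).B m)))

variable {K}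

lemma cycSum_fg : (cycSum K).FG :=
  Submodule.fg_iSup _ fun i => (reg K).toBRep.cyc_fg (reg_e K _) (by positivity)

lemma allSum_fg : (allSum K).FG :=
  cycSum_fg.sup ((Submodule.fg_iSup _ fun _ => cycSum_fg.map _).sup
    (Submodule.fg_iSup _ fun _ => cycSum_fg.map _))

lemma cycSum_le (f : Alg K →ₗ[K] Alg K)
    (h : ∀ i : ℤ, ∀ v ∈ CC K i, f v ∈ CC K i) : ∀ v ∈ cycSum K, f v ∈ cycSum K := by
  intro v hv
  have h1 : cycSum K ≤ (cycSum K).comap f := by
    refine iSup_le fun i => ?_
    intro w hw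
    exact (le_iSup (fun i : Fin 6 => CC K (i : ℕ)) i) (h _ w hw)
  exact h1 hv

lemma cycSum_E (j : ℤ) : ∀ v ∈ cycSum K, (reg K).E j v ∈ cycSum K :=
  cycSum_le _ fun i v hv => (reg K).toBRep.cyc_E (reg_e K i) j v hv

lemma cycSum_X (i j : Fin 2) : ∀ v ∈ cycSum K, (reg K).X i j v ∈ cycSum K :=
  cycSum_le _ fun _ v hv => ((reg K).toBRep.clo_cyc _).1 i j v hv

lemma cycSum_T : ∀ v ∈ cycSum K, (reg K).T v ∈ cycSum K :=
  cycSum_le _ fun _ v hv => ((reg K).toBRep.clo_cyc _).2 v hv

lemma mem_allSum (v : Alg K) (hv : v ∈ cycSum K) : v ∈ allSum K :=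
  (le_sup_left : cycSum K ≤ allSum K) hv

lemma A_mem_allSum (m : Fin 2) (v : Alg K) (hv : v ∈ cycSum K) : (reg K).A m v ∈ allSum K :=
  (le_sup_of_le_right (le_sup_of_le_left
    (le_iSup (fun m => (cycSum K).map ((reg K).A m)) m)) : _ ≤ allSum K)
    (Submodule.mem_map_of_mem hv)

lemma B_mem_allSum (m : Fin 2) (v : Alg K) (hv : v ∈ cycSum K) : (reg K).B m v ∈ allSum K :=
  (le_sup_of_le_right (le_sup_of_le_right
    (le_iSup (fun m => (cycSum K).map ((reg K).B m)) m)) : _ ≤ allSum K)
    (Submodule.mem_map_of_mem hv)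

lemma allSum_le (f : Alg K →ₗ[K] Alg K)
    (h1 : ∀ v ∈ cycSum K, f v ∈ allSum K)
    (h2 : ∀ m, ∀ v ∈ cycSum K, f ((reg K).A m v) ∈ allSum K)
    (h3 : ∀ m, ∀ v ∈ cycSum K, f ((reg K).B m v) ∈ allSum K) :
    ∀ v ∈ allSum K, f v ∈ allSum K := by
  intro v hv
  have h : allSum K ≤ (allSum K).comap f := by
    refine sup_le (fun w hw => h1 w hw) (sup_le (iSup_le fun m => ?_) (iSup_le fun m => ?_))
    · rintro _ ⟨w, hw, rfl⟩
      exact h2 m w hw
    · rintro _ ⟨w, hw, rfl⟩
      exact h3 m w hw
  exact h hv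

lemma allSum_op (g : Gen) : ∀ v ∈ allSum K, (reg K).op g v ∈ allSum K := by
  cases g with
  | e j =>
    change ∀ v ∈ allSum K, (reg K).E j v ∈ allSum K
    refine allSum_le _ (fun v hv => mem_allSum _ (cycSum_E j v hv)) (fun m v hv => ?_)
      (fun m v hv => ?_)
    · have := (reg K).AE m (j + 1) v
      rw [add_sub_cancel_right] at this
      rw [← this]
      exact A_mem_allSum m _ (cycSum_E _ v hv)
    · rw [← (reg K).BE]
      exact B_mem_allSum m _ (cycSum_E _ v hv)
  | x i j =>
    change ∀ v ∈ allSum K, (reg K).X i j v ∈ allSum K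
    refine allSum_le _ (fun v hv => mem_allSum _ (cycSum_X i j v hv)) (fun m v hv => ?_)
      (fun m v hv => ?_)
    · rw [(reg K).XA]
      refine Submodule.sub_mem _ (Submodule.add_mem _ (A_mem_allSum m _ (cycSum_X i j v hv)) ?_) ?_
      · split_ifs
        · exact B_mem_allSum m _ hv
        · exact Submodule.zero_mem _
      · split_ifs
        · exact B_mem_allSum i _ hv
        · exact Submodule.zero_mem _
    · rw [(reg K).XB]
      exact Submodule.neg_mem _ (B_mem_allSum m _ (cycSum_X i j v hv))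
  | t =>
    change ∀ v ∈ allSum K, (reg K).T v ∈ allSum K
    refine allSum_le _ (fun v hv => mem_allSum _ (cycSum_T v hv)) (fun m v hv => ?_)
      (fun m v hv => ?_)
    · rw [(reg K).TA]
      exact Submodule.sub_mem _ (A_mem_allSum m _ (cycSum_T v hv))
        (Submodule.sum_mem _ fun l _ => A_mem_allSum l _ (cycSum_X m l v hv))
    · rw [(reg K).TB]
      exact Submodule.add_mem _ (Submodule.neg_mem _ (B_mem_allSum m _ (cycSum_T v hv)))
        (Submodule.sum_mem _ fun l _ => B_mem_allSum l _ (cycSum_X m l v hv))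
  | a l =>
    change ∀ v ∈ allSum K, (reg K).A l v ∈ allSum K
    refine allSum_le _ (fun v hv => A_mem_allSum l _ hv) (fun m v hv => ?_)
      (fun m v hv => ?_)
    · rw [(reg K).AA]; exact Submodule.zero_mem _
    · rw [(reg K).AB]; exact Submodule.zero_mem _
  | b l =>
    change ∀ v ∈ allSum K, (reg K).B l v ∈ allSum K
    refine allSum_le _ (fun v hv => B_mem_allSum l _ hv) (fun m v hv => ?_)
      (fun m v hv => ?_)
    · rw [(reg K).BA]; exact Submodule.zero_mem _
    · rw [(reg K).BB]; exact Submodule.zero_mem _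

lemma one_mem_allSum : (1 : Alg K) ∈ allSum K := by
  have h1 : ∀ i : Fin 6, gen K (Gen.e (i : ℕ)) ∈ cycSum K := fun i =>
    (le_iSup (fun i : Fin 6 => CC K (i : ℕ)) i) ((reg K).toBRep.mem_cyc _)
  have h2 := (reg K).E_sum 1
  have h3 : ∀ j, (reg K).E j 1 = gen K (Gen.e j) := fun j => by
    change gen K (Gen.e j) * 1 = _
    rw [mul_one]
  apply mem_allSum
  rw [← h2, sum_Icc05]
  simp only [h3]
  exact Submodule.add_mem _ (h1 0) (Submodule.add_mem _ (h1 1) (Submodule.add_mem _ (h1 2)
    (Submodule.add_mem _ (h1 3) (Submodule.add_mem _ (h1 4) (h1 5)))))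

theorem alg_finite (K : Type u) [Field K] : Module.Finite K (Alg K) := by
  refine ⟨?_⟩
  have h : allSum K = ⊤ := by
    rw [eq_top_iff]
    intro a _
    have key : ∀ w ∈ allSum K, a * w ∈ allSum K := by
      induction a using Alg.induct with
      | hK c =>
        intro w hw
        rw [← Algebra.smul_def]
        exact Submodule.smul_mem _ _ hw
      | hg g =>
        intro w hw
        have := allSum_op g w hw
        cases g <;> exact this
      | hadd x y hx hy =>
        intro w hw
        rw [add_mul]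
        exact Submodule.add_mem _ (hx trivial w hw) (hy trivial w hw)
      | hmul x y hx hy =>
        intro w hw
        rw [mul_assoc]
        exact hx trivial _ (hy trivial w hw)
    have := key 1 one_mem_allSum
    rwa [mul_one] at this
  rw [← h]
  exact allSum_fg

end Vale.Agent.P176
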