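import Mathlib

/-!
P176.  Homogeneous polynomials in two variables with values in a module, as tuples.
-/

namespace Vale.Agent.P176

universe u

variable {K : Type u} [Field K]
variable {Y : Type u} [AddCommGroup Y] [Module K Y]
variable {Y' : Type u} [AddCommGroup Y'] [Module K Y']

/-- The coefficient function on the integers. -/
def val {n : ℕ} (f : Fin n → Y) (c : ℤ) : Y :=
  if h : 0 ≤ c ∧ c < n then f ⟨c.toNat, by omega⟩ else 0

lemma val_coe {n : ℕ} (f : Fin n → Y) (c : Fin n) : val f (c : ℤ) = f c := by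
  have h : (0 : ℤ) ≤ (c : ℤ) ∧ (c : ℤ) < n := by have := c.2; omega
  rw [val, dif_pos h]
  congr 1

lemma val_out {n : ℕ} (f : Fin n → Y) (c : ℤ) (h : ¬ (0 ≤ c ∧ c < n)) : val f c = 0 := by
  rw [val, dif_neg h]

lemma val_inj {n : ℕ} {f g : Fin n → Y} (h : ∀ c, val f c = val g c) : f = g := by
  ext c
  rw [← val_coe f, ← val_coe g, h]

lemma val_add {n : ℕ} (f g : Fin n → Y) (c : ℤ) : val (f + g) c = val f c + val g c := by
  unfold val; split_ifs <;> simp

lemma val_sub {n : ℕ} (f g : Fin n → Y) (c : ℤ) : val (f - g) c = val f c - val g c := by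
  unfold val; split_ifs <;> simp

lemma val_smul {n : ℕ} (a : K) (f : Fin n → Y) (c : ℤ) : val (a • f) c = a • val f c := by
  unfold val; split_ifs <;> simp

lemma val_zero {n : ℕ} (c : ℤ) : val (0 : Fin n → Y) c = 0 := by
  unfold val; split_ifs <;> simp

lemma val_comp {n : ℕ} (g : Y →ₗ[K] Y') (f : Fin n → Y) (c : ℤ) :
    val (fun s => g (f s)) c = g (val f c) := by
  unfold val; split_ifs <;> simp

/-- Multiplication by a variable. -/
def mx (K : Type u) [Field K] {Y : Type u} [AddCommGroup Y] [Module K Y] (n : ℕ) (k : Fin 2) :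
    (Fin n → Y) →ₗ[K] (Fin (n + 1) → Y) where
  toFun f := fun c => if k = 0 then val f ((c : ℤ) - 1) else val f c
  map_add' f g := by ext c; simp only [val_add, Pi.add_apply]; split_ifs <;> rfl
  map_smul' a f := by
    ext c; simp only [val_smul, Pi.smul_apply, RingHom.id_apply]; split_ifs <;> rfl

/-- Partial derivative. -/
def dx (K : Type u) [Field K] {Y : Type u} [AddCommGroup Y] [Module K Y] (n : ℕ) (k : Fin 2) :
    (Fin (n + 1) → Y) →ₗ[K] (Fin n → Y) where
  toFun f := fun c => if k = 0 then ((c : ℤ) + 1 : K) • val f ((c : ℤ) + 1)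
    else ((n : K) - (c : ℤ)) • val f c
  map_add' f g := by
    ext c; simp only [val_add, Pi.add_apply, smul_add]; split_ifs <;> rfl
  map_smul' a f := by
    ext c
    simp only [val_smul, Pi.smul_apply, RingHom.id_apply]
    split_ifs <;> rw [smul_comm]

lemma val_mx (n : ℕ) (k : Fin 2) (f : Fin n → Y) (c : ℤ) :
    val (mx K n k f) c = if k = 0 then val f (c - 1) else val f c := by
  by_cases h : 0 ≤ c ∧ c < (n + 1 : ℕ)
  · lift c to ℕ using h.1
    have hc : c < n + 1 := by omega
    have := val_coe (mx K n k f) ⟨c, hc⟩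
    simp only [] at this
    rw [this]
    rfl
  · rw [val_out _ _ h, val_out f (c - 1) (by push_cast at h ⊢; omega),
      val_out f c (by push_cast at h ⊢; omega)]
    simp

lemma val_dx (n : ℕ) (k : Fin 2) (f : Fin (n + 1) → Y) (c : ℤ) :
    val (dx K n k f) c =
      if k = 0 then ((c : K) + 1) • val f (c + 1) else ((n : K) - c) • val f c := by
  by_cases h : 0 ≤ c ∧ c < n
  · obtain ⟨h1, h2⟩ := h
    lift c to ℕ using h1
    have hc : c < n := by omega
    have := val_coe (dx K n k f) ⟨c, hc⟩
    simp only [] at this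
    rw [this]
    simp [dx]
  · rw [val_out _ _ h]
    split_ifs with hk
    · by_cases h1 : c = -1
      · subst h1; simp
      · rw [val_out f (c + 1) (by push_cast at h ⊢; omega), smul_zero]
    · by_cases h1 : c = n
      · subst h1; simp
      · rw [val_out f c (by push_cast at h ⊢; omega), smul_zero]

lemma mx_comp (n : ℕ) (k : Fin 2) (g : Y →ₗ[K] Y') (f : Fin n → Y) :
    mx K n k (fun s => g (f s)) = fun s => g (mx K n k f s) := by
  refine val_inj fun c => ?_
  rw [val_comp, val_mx, val_mx, val_comp, val_comp]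
  split_ifs <;> rfl

lemma dx_comp (n : ℕ) (k : Fin 2) (g : Y →ₗ[K] Y') (f : Fin (n + 1) → Y) :
    dx K n k (fun s => g (f s)) = fun s => g (dx K n k f s) := by
  refine val_inj fun c => ?_
  rw [val_comp, val_dx, val_dx, val_comp, val_comp]
  split_ifs <;> simp

lemma dx_mx (n : ℕ) (k l : Fin 2) (f : Fin (n + 1) → Y) :
    dx K (n + 1) l (mx K (n + 1) k f) = mx K n k (dx K n l f) + if k = l then f else 0 := by
  refine val_inj fun c => ?_
  rw [val_dx, val_mx, val_mx, val_add, val_mx, val_dx, val_dx]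
  fin_cases k <;> fin_cases l <;> simp [val_zero]
  · module
  · congr 1; ring
  · module

lemma mx_mx (n : ℕ) (k l : Fin 2) (f : Fin n → Y) :
    mx K (n + 1) k (mx K n l f) = mx K (n + 1) l (mx K n k f) := by
  refine val_inj fun c => ?_
  simp only [val_mx]
  fin_cases k <;> fin_cases l <;> simp

lemma dx_dx (n : ℕ) (k l : Fin 2) (f : Fin (n + 2) → Y) :
    dx K n k (dx K (n + 1) l f) = dx K n l (dx K (n + 1) k f) := by
  refine val_inj fun c => ?_
  simp only [val_dx]
  fin_cases k <;> fin_cases l <;> simp [smul_smul] <;> congr 1 <;> ring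

/-- The action of the matrix units. -/
def gl (K : Type u) [Field K] {Y : Type u} [AddCommGroup Y] [Module K Y] (n : ℕ) (k l : Fin 2) :
    (Fin n → Y) →ₗ[K] (Fin n → Y) :=
  dx K n l ∘ₗ mx K n k - if k = l then LinearMap.id else 0

lemma gl_apply (n : ℕ) (k l : Fin 2) (f : Fin n → Y) :
    gl K n k l f = dx K n l (mx K n k f) - if k = l then f else 0 := by
  unfold gl; split_ifs <;> simp

lemma gl_comp (n : ℕ) (k l : Fin 2) (g : Y →ₗ[K] Y') (f : Fin n → Y) :
    gl K n k l (fun s => g (f s)) = fun s => g (gl K n k l f s) := by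
  rw [gl_apply, gl_apply, mx_comp, dx_comp]
  split_ifs <;> ext s <;> simp

lemma gl_succ (n : ℕ) (k l : Fin 2) (f : Fin (n + 1) → Y) :
    gl K (n + 1) k l f = mx K n k (dx K n l f) := by
  rw [gl_apply, dx_mx]; simp

lemma val_gl (n : ℕ) (k l : Fin 2) (f : Fin n → Y) (c : ℤ) :
    val (gl K n k l f) c =
      if k = 0 then (if l = 0 then (c : K) • val f c else ((n : K) - c) • val f (c - 1))
      else (if l = 0 then ((c : K) + 1) • val f (c + 1) else ((n : K) - 1 - c) • val f c) := by
  rw [gl_apply, val_sub, val_dx, val_mx, val_mx]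
  fin_cases k <;> fin_cases l <;> simp [val_zero] <;> module

lemma dx_gl (n : ℕ) (m k l : Fin 2) (f : Fin (n + 1) → Y) :
    dx K n m (gl K (n + 1) k l f) = gl K n k l (dx K n m f) + if m = k then dx K n l f else 0 := by
  refine val_inj fun c => ?_
  rw [val_add, val_gl, val_dx, val_gl, val_gl, val_dx, val_dx, val_dx]
  fin_cases m <;> fin_cases k <;> fin_cases l <;> simp [val_zero, val_dx] <;> module

lemma gl_mx (n : ℕ) (m k l : Fin 2) (f : Fin n → Y) :
    gl K (n + 1) k l (mx K n m f) = mx K n m (gl K n k l f) + if l = m then mx K n k f else 0 := by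
  refine val_inj fun c => ?_
  rw [val_add, val_gl, val_mx, val_mx, val_mx, val_mx, val_gl, val_gl]
  fin_cases m <;> fin_cases k <;> fin_cases l <;> simp [val_zero, val_mx] <;> module

lemma sum_gl (n : ℕ) (f : Fin (n + 1) → Y) : ∑ k, gl K (n + 1) k k f = (n : K) • f := by
  refine val_inj fun c => ?_
  rw [Fin.sum_univ_two, val_add, val_gl, val_gl, val_smul]
  simp
  module

lemma sum_dx_mx (n : ℕ) (f : Fin n → Y) : ∑ k, dx K n k (mx K n k f) = ((n : K) + 1) • f := by
  refine val_inj fun c => ?_
  have h0 : val (dx K n 0 (mx K n 0 f)) c = ((c : K) + 1) • val f c := by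
    rw [val_dx, if_pos rfl, val_mx, if_pos rfl, add_sub_cancel_right]
  have h1 : val (dx K n 1 (mx K n 1 f)) c = ((n : K) - c) • val f c := by
    rw [val_dx, if_neg (by decide), val_mx, if_neg (by decide)]
  rw [Fin.sum_univ_two, val_add, h0, h1, val_smul]
  module

lemma gl_gl (n : ℕ) (i j k l : Fin 2) (f : Fin n → Y) :
    gl K n i j (gl K n k l f) = gl K n k l (gl K n i j f)
      + (if j = k then gl K n i l f else 0) - (if i = l then gl K n k j f else 0) := by
  refine val_inj fun c => ?_
  simp only [val_add, val_sub, val_gl, apply_ite (fun g : Fin n → Y => val g c), val_zero]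
  fin_cases i <;> fin_cases j <;> fin_cases k <;> fin_cases l <;> simp <;> module

end Vale.Agent.P176
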