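import Vale.Agent.P176.Proj
import Vale.Agent.P176.Ext
import Vale.Agent.P176.Poly
import Vale.Agent.P176.Cat

/-!
P176.  The representations `fock n`.
-/

namespace Vale.Agent.P176

open CategoryTheory

universe u

variable {K : Type u} [Field K] [CharZero K]

/-- The twisted differential. -/
noncomputable def fockT (K : Type u) [Field K] (n : ℕ) : (Fin n → RR K) →ₗ[K] (Fin n → RR K) :=
  LinearMap.compLeft dR (Fin n) +
    ∑ k, ∑ l, LinearMap.compLeft (xi k l) (Fin n) ∘ₗ gl K n k l

lemma fockT_apply (n : ℕ) (f : Fin n → RR K) : fockT K n f =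
    (fun s => dR (f s)) + ∑ k, ∑ l, (fun s => xi k l (gl K n k l f s)) := by
  simp [fockT]
  rfl

lemma fockT_apply' (n : ℕ) (f : Fin n → RR K) (s : Fin n) : fockT K n f s =
    dR (f s) + ∑ k, ∑ l, xi k l (gl K n k l f s) := by
  rw [fockT_apply]
  simp

lemma fockT_TX (n : ℕ) (i j : Fin 2) (f : Fin n → RR K) (s : Fin n) :
    fockT K n (fun s => xi i j (f s)) s = - xi i j (fockT K n f s) - qq i j (f s) := by
  rw [fockT_apply', fockT_apply', dR_xi]
  simp only [gl_comp, map_add, map_sum]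
  have : ∀ k l, xi k l (xi i j (gl K n k l f s)) = - xi i j (xi k l (gl K n k l f s)) :=
    fun k l => xi_xi _ _ _ _ _
  simp only [this, Finset.sum_neg_distrib]
  abel

lemma xi_sq (i j : Fin 2) (r : RR K) : xi i j (xi i j r) = 0 := by
  have := xi_xi i j i j r
  have h2 : (2 : K) • xi i j (xi i j r) = 0 := by
    rw [two_smul]
    nth_rewrite 1 [this]
    simp
  exact (smul_eq_zero.1 h2).resolve_left two_ne_zero

lemma fockT_TT (n : ℕ) (f : Fin n → RR K) :
    fockT K n (fockT K n f) = 0 := by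
  ext s
  rw [fockT_apply']
  have h1 : ∀ k l, gl K n k l (fockT K n f) = fun s => dR (gl K n k l f s) +
      ∑ i, ∑ j, xi i j (gl K n k l (gl K n i j f) s) := by
    intro k l
    rw [fockT_apply, map_add, gl_comp]
    simp only [map_sum, gl_comp]
    ext s
    simp
  have g1 : gl K n 0 1 (gl K n 0 0 f) = gl K n 0 0 (gl K n 0 1 f) - gl K n 0 1 f := by
    simpa using gl_gl (K := K) n 0 1 0 0 f
  have g2 : gl K n 1 0 (gl K n 0 0 f) = gl K n 0 0 (gl K n 1 0 f) + gl K n 1 0 f := by
    simpa using gl_gl (K := K) n 1 0 0 0 f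
  have g3 : gl K n 1 1 (gl K n 0 0 f) = gl K n 0 0 (gl K n 1 1 f) := by
    simpa using gl_gl (K := K) n 1 1 0 0 f
  have g4 : gl K n 1 0 (gl K n 0 1 f) = gl K n 0 1 (gl K n 1 0 f) + gl K n 1 1 f
      - gl K n 0 0 f := by
    simpa using gl_gl (K := K) n 1 0 0 1 f
  have g5 : gl K n 1 1 (gl K n 0 1 f) = gl K n 0 1 (gl K n 1 1 f) - gl K n 0 1 f := by
    simpa using gl_gl (K := K) n 1 1 0 1 f
  have g6 : gl K n 1 1 (gl K n 1 0 f) = gl K n 1 0 (gl K n 1 1 f) + gl K n 1 0 f := by
    simpa using gl_gl (K := K) n 1 1 1 0 f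
  have x1 : ∀ r : RR K, xi 0 1 (xi 0 0 r) = - xi 0 0 (xi 0 1 r) := fun r => xi_xi _ _ _ _ r
  have x2 : ∀ r : RR K, xi 1 0 (xi 0 0 r) = - xi 0 0 (xi 1 0 r) := fun r => xi_xi _ _ _ _ r
  have x3 : ∀ r : RR K, xi 1 1 (xi 0 0 r) = - xi 0 0 (xi 1 1 r) := fun r => xi_xi _ _ _ _ r
  have x4 : ∀ r : RR K, xi 1 0 (xi 0 1 r) = - xi 0 1 (xi 1 0 r) := fun r => xi_xi _ _ _ _ r
  have x5 : ∀ r : RR K, xi 1 1 (xi 0 1 r) = - xi 0 1 (xi 1 1 r) := fun r => xi_xi _ _ _ _ r
  have x6 : ∀ r : RR K, xi 1 1 (xi 1 0 r) = - xi 1 0 (xi 1 1 r) := fun r => xi_xi _ _ _ _ r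
  simp only [h1, fockT_apply', map_add, dR_dR, dR_xi, Fin.sum_univ_two, qq_apply, xi_sq,
    g1, g2, g3, g4, g5, g6, Pi.add_apply, Pi.sub_apply, map_sub, x1, x2, x3, x4, x5, x6,
    Pi.zero_apply, zero_add, add_zero]
  abel

/-- `R ⊗ Sym^{n-1}` with the Chevalley-Eilenberg differential, in levels `0..4`. -/
noncomputable def fock (K : Type u) [Field K] [CharZero K] (n : ℕ) : BRep K (Fin n → RR K) where
  E j := LinearMap.compLeft (pr j) (Fin n)
  X i j := LinearMap.compLeft (xi i j) (Fin n)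
  T := fockT K n
  E_self j v := by ext s; exact pr_self j (v s)
  E_ne i j h v := by ext s; exact pr_ne i j h (v s)
  E_out j h v := by
    ext s
    change pr j (v s) = 0
    rw [pr_out j (by omega)]
    rfl
  E_sum v := by
    ext s
    rw [sum_Icc05]
    change pr 0 (v s) + (pr 1 (v s) + (pr 2 (v s) + (pr 3 (v s) + (pr 4 (v s) + pr 5 (v s))))) = v s
    rw [pr_out 5 (by omega)]
    simpa using pr_sum (v s)
  XE i j k v := by ext s; exact (pr_xi k i j (v s)).symm
  TE k v := by
    ext s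
    change fockT K n (fun s => pr k (v s)) s = pr (k + 1) (fockT K n v s)
    rw [fockT_apply', fockT_apply', map_add, pr_dR, add_sub_cancel_right]
    simp only [gl_comp, map_sum, pr_xi', add_sub_cancel_right]
  XX i j k l v := by ext s; exact xi_xi i j k l (v s)
  TT v := fockT_TT n v
  TX i j v := by
    ext s
    change fockT K n (fun s => xi i j (v s)) s = _
    rw [fockT_TX, qq_apply]
    simp

lemma fock_E5 (n : ℕ) (v) : (fock K n).E 5 v = 0 := by
  ext s
  change pr 5 (v s) = 0
  rw [pr_out 5 (by omega)]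
  rfl

lemma fock_X_apply (n : ℕ) (i j : Fin 2) (v : Fin n → RR K) (s : Fin n) :
    (fock K n).X i j v s = xi i j (v s) := rfl

lemma fock_E_apply (n : ℕ) (j : ℤ) (v : Fin n → RR K) (s : Fin n) :
    (fock K n).E j v s = pr j (v s) := rfl

lemma fock_T_apply (n : ℕ) (v : Fin n → RR K) : (fock K n).T v = fockT K n v := rfl

lemma fock_T_apply' (n : ℕ) (v : Fin n → RR K) (s : Fin n) : (fock K n).T v s =
    dR (v s) + ∑ k, ∑ l, xi k l (gl K n k l v s) := fockT_apply' n v s

section Rho

variable {Y : Type u} [AddCommGroup Y] [Module K Y]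

/-- The linear map from the generators to operators. -/
def rhoLin (σ : BRep K Y) : (Fin 2 × Fin 2 → K) →ₗ[K] Module.End K Y where
  toFun w := ∑ p : Fin 2 × Fin 2, w p • σ.X p.1 p.2
  map_add' w w' := by simp [add_smul, Finset.sum_add_distrib]
  map_smul' c w := by simp [mul_smul, Finset.smul_sum]

lemma rhoLin_sq (σ : BRep K Y) (w : Fin 2 × Fin 2 → K) : rhoLin σ w * rhoLin σ w = 0 := by
  have h1 : rhoLin σ w * rhoLin σ w = - (rhoLin σ w * rhoLin σ w) := by
    have h2 : rhoLin σ w * rhoLin σ w = ∑ p : Fin 2 × Fin 2, ∑ q : Fin 2 × Fin 2,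
        (w p * w q) • (σ.X p.1 p.2 * σ.X q.1 q.2) := by
      change (∑ p : Fin 2 × Fin 2, w p • σ.X p.1 p.2) * (∑ p : Fin 2 × Fin 2, w p • σ.X p.1 p.2) = _
      rw [Finset.sum_mul_sum]
      refine Finset.sum_congr rfl fun p _ => Finset.sum_congr rfl fun q _ => ?_
      rw [smul_mul_smul_comm]
    conv_lhs => rw [h2, Finset.sum_comm]
    rw [h2, ← Finset.sum_neg_distrib]
    refine Finset.sum_congr rfl fun p _ => ?_
    rw [← Finset.sum_neg_distrib]
    refine Finset.sum_congr rfl fun q _ => ?_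
    rw [← smul_neg, mul_comm (w q)]
    congr 1
    ext v
    exact σ.XX _ _ _ _ v
  have h3 : (2 : K) • (rhoLin σ w * rhoLin σ w) = 0 := by
    rw [two_smul]
    nth_rewrite 1 [h1]
    simp
  exact (smul_eq_zero.1 h3).resolve_left two_ne_zero

/-- The action of the exterior algebra. -/
noncomputable def rho (σ : BRep K Y) : RR K →ₐ[K] Module.End K Y :=
  ExteriorAlgebra.lift K ⟨rhoLin σ, rhoLin_sq σ⟩

lemma rho_xi (σ : BRep K Y) (i j : Fin 2) (r : RR K) (y : Y) :
    rho σ (xi i j r) y = σ.X i j (rho σ r y) := by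
  rw [xi_apply, map_mul]
  have : rho σ (ExteriorAlgebra.ι K (Pi.single (i, j) 1)) = σ.X i j := by
    unfold rho
    rw [ExteriorAlgebra.lift_ι_apply]
    change ∑ p : Fin 2 × Fin 2, (Pi.single (i, j) (1 : K) : Fin 2 × Fin 2 → K) p • σ.X p.1 p.2 = _
    rw [Finset.sum_eq_single (i, j)]
    · simp
    · intro b _ hb
      simp [Pi.single_eq_of_ne hb]
    · simp
  rw [this]
  rfl

end Rho

/-- `fock n` is free. -/
noncomputable def fockFree (n : ℕ) : RFree (fock K n) (Fin n) where
  u s := Pi.single s 1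
  hu s := by
    ext t
    rw [fock_E_apply]
    rcases eq_or_ne t s with rfl | h
    · simp [pr_one]
    · simp [Pi.single_eq_of_ne h]
  gen S h1 hX v := by
    have h2 : ∀ (s : Fin n) (r : RR K), Pi.single s r ∈ S := by
      intro s r
      refine RR_top (S.comap (LinearMap.single K (fun _ : Fin n => RR K) s)) (h1 s) ?_ r
      intro i j r hr
      have h3 : (Pi.single s (xi i j r) : Fin n → RR K) = (fock K n).X i j (Pi.single s r) := by
        ext t
        rw [fock_X_apply]
        rcases eq_or_ne t s with rfl | h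
        · simp
        · simp [Pi.single_eq_of_ne h]
      change (Pi.single s (xi i j r) : Fin n → RR K) ∈ S
      rw [h3]
      exact hX i j _ hr
    rw [← Finset.univ_sum_single v]
    exact S.sum_mem fun s _ => h2 s _
  lift {Y} _ _ σ y := by
    refine ⟨∑ s, LinearMap.applyₗ (y s) ∘ₗ (rho σ).toLinearMap ∘ₗ LinearMap.proj s, ?_, ?_⟩
    · intro i j v
      simp [LinearMap.sum_apply, fock_X_apply, rho_xi]
    · intro s
      rw [LinearMap.sum_apply, Finset.sum_eq_single s]
      · simp
      · intro t _ hts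
        simp [Pi.single_eq_of_ne hts]
      · simp

/-- `V (fock n)` is free. -/
noncomputable def fockVFree (n : ℕ) : RFree (fock K n).V (Fin 2 × Fin n) where
  u p := Pi.single p.1 (Pi.single p.2 1)
  hu p := by
    ext q t
    change pr 0 ((Pi.single p.1 (Pi.single p.2 1) : Fin 2 → Fin n → RR K) q t) = _
    rcases eq_or_ne q p.1 with rfl | h
    · rcases eq_or_ne t p.2 with rfl | h
      · simp [pr_one]
      · simp [Pi.single_eq_of_ne h]
    · simp [Pi.single_eq_of_ne h]
  gen S h1 hX v := by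
    have h2 : ∀ (q : Fin 2) (s : Fin n) (r : RR K), Pi.single q (Pi.single s r) ∈ S := by
      intro q s r
      refine RR_top (S.comap (LinearMap.single K (fun _ : Fin 2 => Fin n → RR K) q ∘ₗ
        LinearMap.single K (fun _ : Fin n => RR K) s)) (h1 (q, s)) ?_ r
      intro i j r hr
      have h3 : (Pi.single q (Pi.single s (xi i j r)) : Fin 2 → Fin n → RR K) =
          (fock K n).V.X i j (Pi.single q (Pi.single s r)) := by
        ext q' t
        change _ = xi i j ((Pi.single q (Pi.single s r) : Fin 2 → Fin n → RR K) q' t)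
        rcases eq_or_ne q' q with rfl | h
        · rcases eq_or_ne t s with rfl | h
          · simp
          · simp [Pi.single_eq_of_ne h]
        · simp [Pi.single_eq_of_ne h]
      change (Pi.single q (Pi.single s (xi i j r)) : Fin 2 → Fin n → RR K) ∈ S
      rw [h3]
      exact hX i j _ hr
    have h3 : ∀ (q : Fin 2) (w : Fin n → RR K), Pi.single q w ∈ S := by
      intro q w
      have h4 : (Pi.single q w : Fin 2 → Fin n → RR K) =
          ∑ s, Pi.single q (Pi.single s (w s)) := by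
        have := congrArg (LinearMap.single K (fun _ : Fin 2 => Fin n → RR K) q)
          (Finset.univ_sum_single w)
        rw [map_sum] at this
        exact this.symm
      rw [h4]
      exact S.sum_mem fun s _ => h2 q s _
    rw [← Finset.univ_sum_single v]
    exact S.sum_mem fun s _ => h3 s _
  lift {Y} _ _ σ y := by
    refine ⟨∑ p : Fin 2 × Fin n, LinearMap.applyₗ (y p) ∘ₗ (rho σ).toLinearMap ∘ₗ
      LinearMap.proj p.2 ∘ₗ LinearMap.proj p.1, ?_, ?_⟩
    · intro i j v
      simp [LinearMap.sum_apply, BRep.V_X_apply, fock_X_apply, rho_xi]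
    · intro p
      rw [LinearMap.sum_apply, Finset.sum_eq_single p]
      · simp
      · intro t _ hts
        rcases eq_or_ne t.1 p.1 with h | h
        · have h' : t.2 ≠ p.2 := fun h'' => hts (Prod.ext h h'')
          simp [h, Pi.single_eq_of_ne h']
        · simp [Pi.single_eq_of_ne h]
      · simp

end Vale.Agent.P176
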