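import Vale.Agent.P176.Cat

/-!
P176.  Package GOOD: induced modules of finite dimensional representations without level `0`.
-/

namespace Vale.Agent.P176

open CategoryTheory

universe u

variable {K : Type u} [Field K]
variable {N : Type u} [AddCommGroup N] [Module K N]

/-! ### Closure properties of `Good` -/

namespace Good

lemma mono {k l : ℕ} {X : ModuleCat.{u} (Alg K)} (h : Good k X) (hkl : k ≤ l) : Good l X := by
  have := h.pd
  exact ⟨hasProjectiveDimensionLT_of_ge X k l hkl, h.ext⟩

lemma X₂ {S : ShortComplex (ModuleCat.{u} (Alg K))} (hS : S.ShortExact) {k : ℕ}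
    (h1 : Good k S.X₁) (h3 : Good k S.X₃) : Good k S.X₂ :=
  ⟨hS.hasProjectiveDimensionLT_X₂ k h1.pd h3.pd, fun n e => by
    obtain ⟨x₃, rfl⟩ := Abelian.Ext.contravariant_sequence_exact₂ hS _ e (h1.ext _ _)
    rw [h3.ext _ x₃, Abelian.Ext.comp_zero]⟩

lemma X₃ {S : ShortComplex (ModuleCat.{u} (Alg K))} (hS : S.ShortExact) {k : ℕ}
    (h1 : Good k S.X₁) (h2 : Good (k + 1) S.X₂) : Good (k + 1) S.X₃ :=
  ⟨hS.hasProjectiveDimensionLT_X₃ k h1.pd h2.pd, fun n e => by
    cases n with
    | zero =>
      have := hS.epi_g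
      apply Abelian.Ext.precomp_mk₀_injective_of_epi (S0 K) S.g
      rw [map_zero]
      exact h2.ext _ _
    | succ n =>
      obtain ⟨x₁, rfl⟩ := Abelian.Ext.contravariant_sequence_exact₃ hS _ e (h2.ext _ _)
        (add_comm 1 n)
      rw [h1.ext _ x₁, Abelian.Ext.comp_zero]⟩

lemma of_isZero {X : ModuleCat.{u} (Alg K)} (h : Limits.IsZero X) : Good 0 X := by
  have := h.hasProjectiveDimensionLT_zero
  exact ⟨this, fun n e => e.eq_zero_of_hasProjectiveDimensionLT 0 (Nat.zero_le _)⟩

lemma of_projective {X : ModuleCat.{u} (Alg K)} [Projective X]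
    (h : ∀ f : X ⟶ S0 K, f = 0) : Good 1 X := by
  refine ⟨inferInstance, fun n e => ?_⟩
  cases n with
  | zero =>
    obtain ⟨f, rfl⟩ := Abelian.Ext.homEquiv₀.symm.surjective e
    rw [h f, Abelian.Ext.homEquiv₀_symm_apply, Abelian.Ext.mk₀_zero]
  | succ n => exact e.eq_zero_of_projective

end Good

/-! ### No homomorphisms from induced modules to `S0` -/

lemma Rep.gen_smul (ρ : Rep K N) (g : Gen) (v : (ρ.mod : Type u)) :
    gen K g • v = (show (ρ.mod : Type u) from ρ.op g (show N from v)) := by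
  change ρ.hom (gen K g) v = ρ.op g v
  rw [Rep.hom_gen]

lemma S0_e0 (y : (S0 K : ModuleCat.{u} (Alg K))) : gen K (Gen.e 0) • y = y := by
  refine (Rep.gen_smul (triv K 0 (by norm_num)).toRep (Gen.e 0) y).trans ?_
  change (if (0 : ℤ) = 0 then LinearMap.id else (0 : K →ₗ[K] K)) y = y
  rw [if_pos rfl]
  rfl

lemma S0_a (m : Fin 2) (y : (S0 K : ModuleCat.{u} (Alg K))) : gen K (Gen.a m) • y = 0 :=
  (Rep.gen_smul (triv K 0 (by norm_num)).toRep (Gen.a m) y).trans rfl

lemma hom_S0_eq_zero (β : BRep K N) (h0 : ∀ v, β.E 0 v = 0) (f : (β.ind h0).mod ⟶ S0 K) :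
    f = 0 := by
  ext v
  set w : N × ((Fin 2 → N) × (Fin 2 → N)) := v with hw
  have key : f.hom v = gen K (Gen.e 0) • f.hom v := (S0_e0 _).symm
  rw [← map_smul] at key
  have h1 : (gen K (Gen.e 0) • v : (β.ind h0).mod) =
      gen K (Gen.a 0) • (show ((β.ind h0).mod : Type u) from (β.E 1 (w.2.1 0), (0, 0))) +
      gen K (Gen.a 1) • (show ((β.ind h0).mod : Type u) from (β.E 1 (w.2.1 1), (0, 0))) := by
    rw [Rep.gen_smul, Rep.gen_smul, Rep.gen_smul]
    have e5 : ((0, (Pi.single 0 (β.E 1 (w.2.1 0)), 0)) : N × ((Fin 2 → N) × (Fin 2 → N))) +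
        (0, (Pi.single 1 (β.E 1 (w.2.1 1)), 0)) =
        (β.E 0 w.1, (fun m => β.E (0 + 1) (w.2.1 m), fun m => β.E 0 (w.2.2 m))) := by
      simp only [h0]
      ext m
      · simp
      · fin_cases m <;> simp
      · simp
    exact e5.symm
  rw [h1, map_add, map_smul, map_smul, S0_a, S0_a, add_zero] at key
  rw [key]
  rfl

/-! ### Subrepresentations -/

namespace BRep

/-- The restriction to a stable subspace. -/
def restr (β : BRep K N) (W : Submodule K N) (hE : ∀ j, ∀ v ∈ W, β.E j v ∈ W)
    (hX : ∀ i j, ∀ v ∈ W, β.X i j v ∈ W) (hT : ∀ v ∈ W, β.T v ∈ W) : BRep K W where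
  E j := (β.E j).restrict (hE j)
  X i j := (β.X i j).restrict (hX i j)
  T := β.T.restrict hT
  E_self j v := Subtype.ext (β.E_self j v)
  E_ne i j h v := Subtype.ext (β.E_ne i j h v)
  E_out j h v := Subtype.ext (β.E_out j h v)
  E_sum v := by
    apply Subtype.ext
    rw [AddSubmonoidClass.coe_finsetSum]
    exact β.E_sum v
  XE i j k v := Subtype.ext (β.XE i j k v)
  TE k v := Subtype.ext (β.TE k v)
  XX i j k l v := Subtype.ext (β.XX i j k l v)
  TT v := Subtype.ext (β.TT v)
  TX i j v := by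
    apply Subtype.ext
    have := β.TX i j v
    simpa [AddSubmonoidClass.coe_finsetSum] using this

lemma restr_subtype (β : BRep K N) (W : Submodule K N) (hE hX hT) :
    IsHom (β.restr W hE hX hT) β W.subtype where
  E _ _ := rfl
  X _ _ _ := rfl
  T _ := rfl

/-- `Q` is stable under the raising operators. -/
def Clo (β : BRep K N) (Q : Submodule K N) : Prop :=
  (∀ i j v, v ∈ Q → β.X i j v ∈ Q) ∧ ∀ v, v ∈ Q → β.T v ∈ Q

/-- The subspace generated by `n` under the raising operators. -/
def cyc (β : BRep K N) (n : N) : Submodule K N := sInf {Q | n ∈ Q ∧ β.Clo Q}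

lemma cyc_le (β : BRep K N) {n : N} {Q : Submodule K N} (h1 : n ∈ Q) (h2 : β.Clo Q) :
    β.cyc n ≤ Q := sInf_le ⟨h1, h2⟩

lemma mem_cyc (β : BRep K N) (n : N) : n ∈ β.cyc n := by
  rw [cyc, Submodule.mem_sInf]
  exact fun Q hQ => hQ.1

lemma clo_cyc (β : BRep K N) (n : N) : β.Clo (β.cyc n) := by
  constructor
  · intro i j v hv
    rw [cyc, Submodule.mem_sInf] at hv ⊢
    exact fun Q hQ => hQ.2.1 i j v (hv Q hQ)
  · intro v hv
    rw [cyc, Submodule.mem_sInf] at hv ⊢
    exact fun Q hQ => hQ.2.2 v (hv Q hQ)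

lemma XE' (β : BRep K N) (i j : Fin 2) (k : ℤ) (v : N) :
    β.E k (β.X i j v) = β.X i j (β.E (k - 1) v) := by
  rw [β.XE, sub_add_cancel]

lemma TE' (β : BRep K N) (k : ℤ) (v : N) : β.E k (β.T v) = β.T (β.E (k - 1) v) := by
  rw [β.TE, sub_add_cancel]

variable (β : BRep K N) {i : ℤ} {n : N} (hn : β.E i n = n)

include hn

lemma cyc_E (j : ℤ) (v : N) (hv : v ∈ β.cyc n) : β.E j v ∈ β.cyc n := by
  let Q : Submodule K N :=
    { carrier := {v | ∀ j, β.E j v ∈ β.cyc n}
      add_mem' := fun {a b} ha hb j => by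
        rw [map_add]; exact (β.cyc n).add_mem (ha j) (hb j)
      zero_mem' := fun j => by
        rw [map_zero]; exact (β.cyc n).zero_mem
      smul_mem' := fun c a ha j => by
        rw [map_smul]; exact (β.cyc n).smul_mem c (ha j) }
  have h : β.cyc n ≤ Q := by
    apply β.cyc_le
    · intro j
      by_cases hj : j = i
      · rw [hj, hn]; exact β.mem_cyc n
      · have h0 : β.E j n = 0 := by rw [← hn, β.E_ne j i hj]
        rw [h0]; exact (β.cyc n).zero_mem
    · constructor
      · intro a b v hv j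
        rw [β.XE']
        exact (β.clo_cyc n).1 _ _ _ (hv _)
      · intro v hv j
        rw [β.TE']
        exact (β.clo_cyc n).2 _ (hv _)
  exact h hv j

lemma cyc_lev (v : N) (hv : v ∈ β.cyc n) :
    (∀ j, j < i → β.E j v = 0) ∧ ∃ c : K, β.E i v = c • n := by
  let Q : Submodule K N :=
    { carrier := {v | (∀ j, j < i → β.E j v = 0) ∧ ∃ c : K, β.E i v = c • n}
      add_mem' := fun {a b} ha hb => by
        obtain ⟨h1, c, hc⟩ := ha
        obtain ⟨h2, d, hd⟩ := hb
        refine ⟨fun j hj => ?_, c + d, ?_⟩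
        · rw [map_add, h1 j hj, h2 j hj, add_zero]
        · rw [map_add, hc, hd, add_smul]
      zero_mem' := ⟨fun j _ => map_zero _, 0, by rw [map_zero, zero_smul]⟩
      smul_mem' := fun c a ha => by
        obtain ⟨h1, d, hd⟩ := ha
        refine ⟨fun j hj => ?_, c * d, ?_⟩
        · rw [map_smul, h1 j hj, smul_zero]
        · rw [map_smul, hd, mul_smul] }
  have h : β.cyc n ≤ Q := by
    apply β.cyc_le
    · refine ⟨fun j hj => ?_, 1, ?_⟩
      · rw [← hn, β.E_ne j i (by omega)]
      · rw [hn, one_smul]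
    · constructor
      · intro a b v hv
        refine ⟨fun j hj => ?_, 0, ?_⟩
        · rw [β.XE', hv.1 _ (by omega), map_zero]
        · rw [β.XE', hv.1 _ (by omega), map_zero, zero_smul]
      · intro v hv
        refine ⟨fun j hj => ?_, 0, ?_⟩
        · rw [β.TE', hv.1 _ (by omega), map_zero]
        · rw [β.TE', hv.1 _ (by omega), map_zero, zero_smul]
  exact h hv

omit hn

/-- The layers. -/
def layer (β : BRep K N) (n : N) : ℕ → Submodule K N
  | 0 => K ∙ n
  | l + 1 => (⨆ i, ⨆ j, (layer β n l).map (β.X i j)) ⊔ (layer β n l).map β.T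

lemma layer_fg (l : ℕ) : (β.layer n l).FG := by
  induction l with
  | zero => exact Submodule.fg_span_singleton n
  | succ l ih =>
    refine Submodule.FG.sup ?_ (ih.map _)
    exact Submodule.fg_iSup _ fun i => Submodule.fg_iSup _ fun j => ih.map _

include hn

lemma layer_E (l : ℕ) : ∀ v ∈ β.layer n l, β.E (i + l) v = v := by
  induction l with
  | zero =>
    intro v hv
    obtain ⟨c, rfl⟩ := Submodule.mem_span_singleton.1 hv
    rw [Nat.cast_zero, add_zero, map_smul, hn]
  | succ l ih =>
    intro v hv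
    have h : β.layer n (l + 1) ≤ LinearMap.eqLocus (β.E (i + (l + 1 : ℕ))) LinearMap.id := by
      refine sup_le (iSup_le fun a => iSup_le fun b => ?_) ?_
      · rintro _ ⟨w, hw, rfl⟩
        rw [LinearMap.mem_eqLocus, β.XE', LinearMap.id_apply]
        congr 1
        rw [show i + ((l + 1 : ℕ) : ℤ) - 1 = i + l by push_cast; ring]
        exact ih w hw
      · rintro _ ⟨w, hw, rfl⟩
        rw [LinearMap.mem_eqLocus, β.TE', LinearMap.id_apply]
        congr 1
        rw [show i + ((l + 1 : ℕ) : ℤ) - 1 = i + l by push_cast; ring]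
        exact ih w hw
    exact h hv

lemma cyc_fg (hi : 0 ≤ i) : (β.cyc n).FG := by
  set C : Submodule K N := ⨆ l : Fin 6, β.layer n l with hC
  have hfg : C.FG := Submodule.fg_iSup _ fun l => β.layer_fg l
  have hle : ∀ l : ℕ, β.layer n l ≤ C := by
    intro l
    by_cases hl : l < 6
    · exact le_iSup (fun l : Fin 6 => β.layer n l) ⟨l, hl⟩
    · intro v hv
      have := β.layer_E hn l v hv
      rw [β.E_out _ (by omega)] at this
      rw [← this]
      exact C.zero_mem
  have hcyc : β.cyc n ≤ C := by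
    apply β.cyc_le
    · exact hle 0 (Submodule.mem_span_singleton_self n)
    · constructor
      · intro a b v hv
        have h : C ≤ C.comap (β.X a b) := by
          refine iSup_le fun l => ?_
          intro w hw
          refine hle (l + 1) ?_
          refine (le_sup_left (α := Submodule K N)) ?_
          refine (le_iSup_of_le (f := fun i => ⨆ j, (β.layer n l).map (β.X i j)) a
            (le_iSup (fun j => (β.layer n l).map (β.X a j)) b)) ?_
          exact Submodule.mem_map_of_mem hw
        exact h hv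
      · intro v hv
        have h : C ≤ C.comap β.T := by
          refine iSup_le fun l => ?_
          intro w hw
          refine hle (l + 1) ?_
          refine le_sup_right (α := Submodule K N) ?_
          exact Submodule.mem_map_of_mem hw
        exact h hv
  exact hfg.of_le hcyc

end BRep

/-! ### The projective modules -/

section Proj

variable (K)

/-- The regular representation. -/
noncomputable def reg : Rep K (Alg K) := Rep.ofModule (Alg K)

lemma reg_e (i : ℤ) : (reg K).toBRep.E i (gen K (Gen.e i)) = gen K (Gen.e i) := by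
  have := (reg K).E_self i 1
  change gen K (Gen.e i) * (gen K (Gen.e i) * 1) = gen K (Gen.e i) * 1 at this
  rw [mul_one] at this
  exact this

/-- The underlying space of the projective in level `i`. -/
noncomputable abbrev CC (i : ℤ) : Submodule K (Alg K) := (reg K).toBRep.cyc (gen K (Gen.e i))

/-- The projective in level `i`. -/
noncomputable def bproj (i : ℤ) : BRep K (CC K i) :=
  (reg K).toBRep.restr _ ((reg K).toBRep.cyc_E (reg_e K i))
    ((reg K).toBRep.clo_cyc _).1 ((reg K).toBRep.clo_cyc _).2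

lemma bproj_lt (i j : ℤ) (hj : j < i) (v : CC K i) : (bproj K i).E j v = 0 :=
  Subtype.ext (((reg K).toBRep.cyc_lev (reg_e K i) v v.2).1 j hj)

variable {K}

/-- The generator. -/
noncomputable def ehat (i : ℤ) : CC K i := ⟨gen K (Gen.e i), BRep.mem_cyc _ _⟩

/-- The generator of the induced module. -/
noncomputable def ehat' (i : ℤ) : CC K i × ((Fin 2 → CC K i) × (Fin 2 → CC K i)) :=
  (ehat i, (0, 0))

variable {i : ℤ} (h0 : ∀ v, (bproj K i).E 0 v = 0)

/-- The map from the regular representation. -/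
noncomputable def gmap : Alg K →ₗ[K] CC K i × ((Fin 2 → CC K i) × (Fin 2 → CC K i)) :=
  LinearMap.applyₗ (ehat' i) ∘ₗ ((bproj K i).ind h0).hom.toLinearMap

lemma gmap_apply (a : Alg K) : gmap h0 a = ((bproj K i).ind h0).hom a (ehat' i) := rfl

lemma gmap_isHom : Rep.IsHom (reg K) ((bproj K i).ind h0) (gmap h0) := by
  have key : ∀ (g : Gen) (v : Alg K), gmap h0 (gen K g * v) =
      ((bproj K i).ind h0).op g (gmap h0 v) := by
    intro g v
    rw [gmap_apply, gmap_apply, map_mul, Rep.hom_gen]
    rfl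
  exact ⟨fun j v => key (Gen.e j) v, fun i j v => key (Gen.x i j) v, fun v => key Gen.t v,
    fun m v => key (Gen.a m) v, fun m v => key (Gen.b m) v⟩

lemma gmap_cyc (s : Alg K) (hs : s ∈ CC K i) :
    ((gmap h0 s).1 : Alg K) = s ∧ (gmap h0 s).2 = 0 := by
  let Q : Submodule K (Alg K) :=
    { carrier := {s | ((gmap h0 s).1 : Alg K) = s ∧ (gmap h0 s).2 = 0}
      add_mem' := fun {a b} ha hb => by
        refine ⟨?_, ?_⟩
        · rw [map_add, Prod.fst_add, Submodule.coe_add, ha.1, hb.1]
        · rw [map_add, Prod.snd_add, ha.2, hb.2, add_zero]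
      zero_mem' := by
        refine ⟨?_, ?_⟩
        · rw [map_zero]; rfl
        · rw [map_zero]; rfl
      smul_mem' := fun c a ha => by
        refine ⟨?_, ?_⟩
        · rw [map_smul, Prod.smul_fst, Submodule.coe_smul, ha.1]
        · rw [map_smul, Prod.smul_snd, ha.2, smul_zero] }
  have hQ : CC K i ≤ Q := by
    apply BRep.cyc_le
    · have h1 : gmap h0 (gen K (Gen.e i)) = ehat' i := by
        rw [gmap_apply, Rep.hom_gen]
        have h2 : (bproj K i).E i (ehat i) = ehat i := Subtype.ext (reg_e K i)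
        change (((bproj K i).prod ((bproj K i).EE h0)).E i) (ehat i, (0, 0)) = (ehat i, (0, 0))
        rw [BRep.prod_E, LinearMap.prodMap_apply]
        simp only [h2]
        rw [show ((0 : Fin 2 → CC K i), (0 : Fin 2 → CC K i)) = 0 from rfl, map_zero]
      change ((gmap h0 (gen K (Gen.e i))).1 : Alg K) = gen K (Gen.e i) ∧
        (gmap h0 (gen K (Gen.e i))).2 = 0
      rw [h1]
      exact ⟨rfl, rfl⟩
    · constructor
      · intro a b v hv
        change ((gmap h0 ((reg K).X a b v)).1 : Alg K) = (reg K).X a b v ∧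
          (gmap h0 ((reg K).X a b v)).2 = 0
        rw [(gmap_isHom h0).X]
        have e1 : ((bproj K i).ind h0).X a b (gmap h0 v) =
            ((bproj K i).X a b (gmap h0 v).1, ((bproj K i).EE h0).X a b (gmap h0 v).2) := rfl
        rw [e1, hv.2, map_zero]
        refine ⟨?_, rfl⟩
        have e2 : (((bproj K i).X a b (gmap h0 v).1 : CC K i) : Alg K) =
          (reg K).X a b ((gmap h0 v).1 : Alg K) := rfl
        rw [e2, hv.1]
      · intro v hv
        change ((gmap h0 ((reg K).T v)).1 : Alg K) = (reg K).T v ∧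
          (gmap h0 ((reg K).T v)).2 = 0
        rw [(gmap_isHom h0).T]
        have e1 : ((bproj K i).ind h0).T (gmap h0 v) =
            ((bproj K i).T (gmap h0 v).1, ((bproj K i).EE h0).T (gmap h0 v).2) := rfl
        rw [e1, hv.2, map_zero]
        refine ⟨?_, rfl⟩
        have e2 : (((bproj K i).T (gmap h0 v).1 : CC K i) : Alg K) =
          (reg K).T ((gmap h0 v).1 : Alg K) := rfl
        rw [e2, hv.1]
  exact hQ hs

lemma gmap_coe (s : CC K i) : gmap h0 (s : Alg K) = (s, (0, 0)) := by
  obtain ⟨h1, h2⟩ := gmap_cyc h0 s s.2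
  exact Prod.ext (Subtype.ext h1) h2

lemma proj_good : Good 1 ((bproj K i).ind h0).mod := by
  have hf : Rep.IsHom ((bproj K i).ind h0) (reg K) (BRep.indLift (reg K) (CC K i).subtype) :=
    BRep.indLift_isHom _ h0 _ _ ((reg K).toBRep.restr_subtype _ _ _ _)
  have hr : ∀ v, gmap h0 (BRep.indLift (reg K) (CC K i).subtype v) = v := by
    intro v
    rw [BRep.indLift_apply, Fin.sum_univ_two, Fin.sum_univ_two]
    simp only [map_add, (gmap_isHom h0).A, (gmap_isHom h0).B, Submodule.subtype_apply, gmap_coe,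
      BRep.ind_A_apply, BRep.ind_B_apply]
    ext m
    · simp
    · fin_cases m <;> simp
    · fin_cases m <;> simp
  have hret := Rep.retract hf (gmap_isHom h0) hr
  have hp : Projective (reg K).mod := Rep.projective_ofModule (Alg K)
  have h1 : HasProjectiveDimensionLT (reg K).mod 1 := inferInstance
  have h2 : HasProjectiveDimensionLT ((bproj K i).ind h0).mod 1 :=
    hret.hasProjectiveDimensionLT 1
  have h3 : Projective ((bproj K i).ind h0).mod :=
    projective_iff_hasProjectiveDimensionLT_one.2 h2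
  exact @Good.of_projective K _ _ h3 (hom_S0_eq_zero _ h0)

end Proj

/-! ### The induction -/

namespace BRep

lemma fun_isHom (β : BRep K N) {i : ℤ} (hi : 0 ≤ i ∧ i ≤ 5) (hlt : ∀ j, j < i → ∀ v, β.E j v = 0)
    (φ : N →ₗ[K] K) (hφ : ∀ v, φ (β.E i v) = φ v) : IsHom β (triv K i hi) φ where
  E j v := by
    by_cases hj : j = i
    · subst hj
      rw [hφ]
      simp [triv]
    · rw [← hφ, β.E_ne i j (Ne.symm hj), map_zero]
      simp [triv, hj]
  X a b v := by
    rw [← hφ, β.XE', hlt _ (by omega), map_zero, map_zero]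
    rfl
  T v := by
    rw [← hφ, β.TE', hlt _ (by omega), map_zero, map_zero]
    rfl

variable {P : Type u} [AddCommGroup P] [Module K P]

/-- The kernel of a homomorphism. -/
def kerRep {β : BRep K N} {γ : BRep K P} {φ : N →ₗ[K] P} (h : IsHom β γ φ) :
    BRep K (LinearMap.ker φ) :=
  β.restr (LinearMap.ker φ)
    (fun j v hv => by
      rw [LinearMap.mem_ker] at hv ⊢
      rw [h.E, hv, map_zero])
    (fun i j v hv => by
      rw [LinearMap.mem_ker] at hv ⊢
      rw [h.X, hv, map_zero])
    (fun v hv => by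
      rw [LinearMap.mem_ker] at hv ⊢
      rw [h.T, hv, map_zero])

lemma kerRep_subtype {β : BRep K N} {γ : BRep K P} {φ : N →ₗ[K] P} (h : IsHom β γ φ) :
    IsHom (kerRep h) β (LinearMap.ker φ).subtype := β.restr_subtype _ _ _ _

lemma kerSeq_shortExact {β : BRep K N} {γ : BRep K P} {φ : N →ₗ[K] P} (h : IsHom β γ φ)
    (hs : Function.Surjective φ) (hk0 : ∀ v, (kerRep h).E 0 v = 0) (h0 : ∀ v, β.E 0 v = 0)
    (h0' : ∀ v, γ.E 0 v = 0) (hex) :
    (Rep.seq ((kerRep_subtype h).ind hk0 h0) (h.ind h0 h0') hex).ShortExact :=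
  Rep.seq_shortExact _ _ _ (indMap_injective (Submodule.injective_subtype _))
    (indMap_surjective hs)

lemma ker_exact (φ : N →ₗ[K] P) (y : N) : φ y = 0 ↔ ∃ x, (LinearMap.ker φ).subtype x = y := by
  constructor
  · intro h
    exact ⟨⟨y, h⟩, rfl⟩
  · rintro ⟨x, rfl⟩
    exact x.2

end BRep

lemma triv_h0 {i : ℤ} (hi : 0 ≤ i ∧ i ≤ 5) (h1 : 0 < i) (v : K) : (triv K i hi).E 0 v = 0 := by
  simp [triv, h1.ne]

theorem good_triv {k : ℕ} (hk : k + 1 ≤ 5)
    (ih : ∀ (N : Type u) [AddCommGroup N] [Module K N] [Module.Finite K N] (β : BRep K N)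
      (h0 : ∀ v, β.E 0 v = 0), (∀ j : ℤ, j < 6 - k → ∀ v, β.E j v = 0) → Good k (β.ind h0).mod)
    (hi : 0 ≤ (5 - k : ℤ) ∧ (5 - k : ℤ) ≤ 5) (h1 : 0 < (5 - k : ℤ)) :
    Good (k + 1) ((triv K (5 - k) hi).ind (triv_h0 hi h1)).mod := by
  set i : ℤ := 5 - k with hik
  let φ : CC K i →ₗ[K] K := LinearMap.applyₗ (1 : K) ∘ₗ
    (triv K i hi).toRep.hom.toLinearMap ∘ₗ (CC K i).subtype
  have hφa : ∀ v : CC K i, φ v = (triv K i hi).toRep.hom (v : Alg K) 1 := fun v => rfl
  have hφ : ∀ v, φ ((bproj K i).E i v) = φ v := by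
    intro v
    rw [hφa, hφa]
    have e1 : (((bproj K i).E i v : CC K i) : Alg K) = gen K (Gen.e i) * (v : Alg K) := rfl
    rw [e1, map_mul, Rep.hom_gen]
    change (triv K i hi).E i ((triv K i hi).toRep.hom (v : Alg K) 1) = _
    simp [triv]
  have hhom := (bproj K i).fun_isHom hi (fun j hj v => bproj_lt K i j hj v) φ hφ
  have hone : φ (ehat i) = 1 := by
    rw [hφa]
    change (triv K i hi).toRep.hom (gen K (Gen.e i)) 1 = 1
    rw [Rep.hom_gen]
    change (triv K i hi).E i 1 = 1
    simp [triv]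
  have hsurj : Function.Surjective φ := fun c => ⟨c • ehat i, by rw [map_smul, hone]; simp⟩
  have hb0 : ∀ v, (bproj K i).E 0 v = 0 := fun v => bproj_lt K i 0 h1 v
  have hklt : ∀ j : ℤ, j < 6 - k → ∀ v, (BRep.kerRep hhom).E j v = 0 := by
    intro j hj v
    apply Subtype.ext
    change (bproj K i).E j (v : CC K i) = 0
    by_cases hj' : j < i
    · exact bproj_lt K i j hj' _
    · have hji : j = i := by omega
      subst hji
      obtain ⟨c, hc⟩ := ((reg K).toBRep.cyc_lev (reg_e K i) (v : CC K i) (v : CC K i).2).2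
      have e1 : (bproj K i).E i (v : CC K i) = c • ehat i := Subtype.ext hc
      have e2 : φ ((bproj K i).E i (v : CC K i)) = 0 := by
        rw [hφ]
        exact v.2
      rw [e1, map_smul, hone, smul_eq_mul, mul_one] at e2
      rw [e1, e2, zero_smul]
  have hk0 : ∀ v, (BRep.kerRep hhom).E 0 v = 0 := hklt 0 (by omega)
  have : Module.Finite K (CC K i) :=
    Module.Finite.iff_fg.2 ((reg K).toBRep.cyc_fg (reg_e K i) hi.1)
  exact Good.X₃ (BRep.kerSeq_shortExact hhom hsurj hk0 hb0 (triv_h0 hi h1)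
    (BRep.indMap_exact (BRep.ker_exact φ))) (ih _ _ hk0 hklt) ((proj_good hb0).mono (by omega))

theorem good_aux (k : ℕ) (hk : k ≤ 5) : ∀ (N : Type u) [AddCommGroup N] [Module K N]
    [Module.Finite K N] (β : BRep K N) (h0 : ∀ v, β.E 0 v = 0),
    (∀ j : ℤ, j < 6 - k → ∀ v, β.E j v = 0) → Good k (β.ind h0).mod := by
  induction k with
  | zero =>
    intro N _ _ _ β h0 hlt
    have hN : ∀ v : N, v = 0 := by
      intro v
      rw [← β.E_sum v]
      apply Finset.sum_eq_zero
      intro j hj
      rw [Finset.mem_Icc] at hj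
      exact hlt j (by push_cast; omega) v
    apply Good.of_isZero
    have : Subsingleton ((β.ind h0).mod : Type u) := by
      have : Subsingleton N := ⟨fun a b => by rw [hN a, hN b]⟩
      exact inferInstanceAs (Subsingleton (N × ((Fin 2 → N) × (Fin 2 → N))))
    exact ModuleCat.isZero_of_subsingleton _
  | succ k ih =>
    have hi : 0 ≤ (5 - k : ℤ) ∧ (5 - k : ℤ) ≤ 5 := ⟨by omega, by omega⟩
    have h1 : 0 < (5 - k : ℤ) := by omega
    have ih' := ih (by omega)
    have htriv := good_triv hk ih' hi h1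
    suffices H : ∀ (d : ℕ) (N : Type u) [AddCommGroup N] [Module K N]
        [Module.Finite K N] (β : BRep K N) (h0 : ∀ v, β.E 0 v = 0),
        (∀ j : ℤ, j < 6 - ((k + 1 : ℕ) : ℤ) → ∀ v, β.E j v = 0) → Module.finrank K N = d →
        Good (k + 1) (β.ind h0).mod from
      fun N _ _ _ β h0 hlt => H _ N β h0 hlt rfl
    intro d
    induction d using Nat.strong_induction_on with
    | _ d ihd =>
      intro N _ _ _ β h0 hlt hd
      by_cases hz : ∀ v, β.E (5 - k) v = 0
      · refine (ih' N β h0 ?_).mono (Nat.le_succ k)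
        intro j hj
        by_cases hj' : j = 5 - k
        · rw [hj']; exact hz
        · exact hlt j (by push_cast; omega)
      · push Not at hz
        obtain ⟨v₀, hv₀⟩ := hz
        obtain ⟨f, hf⟩ : ∃ f : N →ₗ[K] K, f (β.E (5 - k) v₀) ≠ 0 := by
          by_contra hcon
          push Not at hcon
          exact hv₀ ((Module.forall_dual_apply_eq_zero_iff K _).1 hcon)
        let φ : N →ₗ[K] K := f ∘ₗ β.E (5 - k)
        have hφ : ∀ v, φ (β.E (5 - k) v) = φ v := by
          intro v
          change f (β.E (5 - k) (β.E (5 - k) v)) = f (β.E (5 - k) v)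
          rw [β.E_self]
        have hφ0 : φ v₀ ≠ 0 := hf
        have hlt' : ∀ j, j < (5 - k : ℤ) → ∀ v, β.E j v = 0 := by
          intro j hj
          exact hlt j (by push_cast; omega)
        have hhom := β.fun_isHom hi hlt' φ hφ
        have hsurj : Function.Surjective φ := by
          intro c
          refine ⟨(c / φ v₀) • v₀, ?_⟩
          rw [map_smul, smul_eq_mul, div_mul_cancel₀ _ hφ0]
        have hklt : ∀ j : ℤ, j < 6 - ((k + 1 : ℕ) : ℤ) → ∀ v, (BRep.kerRep hhom).E j v = 0 := by
          intro j hj v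
          exact Subtype.ext (hlt j hj _)
        have hk0 : ∀ v, (BRep.kerRep hhom).E 0 v = 0 := fun v => Subtype.ext (h0 _)
        have hrank : Module.finrank K (LinearMap.ker φ) < d := by
          rw [← hd]
          apply Submodule.finrank_lt
          intro htop
          apply hφ0
          have : v₀ ∈ LinearMap.ker φ := by rw [htop]; trivial
          exact this
        exact Good.X₂ (BRep.kerSeq_shortExact hhom hsurj hk0 h0 (triv_h0 hi h1)
          (BRep.indMap_exact (BRep.ker_exact φ))) (ihd _ hrank _ _ hk0 hklt rfl) htriv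

theorem good_ind {N : Type u} [AddCommGroup N] [Module K N] [Module.Finite K N]
    (β : BRep K N) (h0 : ∀ v, β.E 0 v = 0) : Good 6 (β.ind h0).mod := by
  refine (good_aux 5 le_rfl N β h0 ?_).mono (by norm_num)
  intro j hj v
  by_cases hj0 : j = 0
  · rw [hj0]; exact h0 v
  · exact β.E_out j (Or.inl (by push_cast at hj; omega)) v

end Vale.Agent.P176
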