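import Vale.Agent.P176.Mod

/-!
P176.  The functors `toRep`, `prod`, `EE` and `ind`.
-/

namespace Vale.Agent.P176

open CategoryTheory

universe u

variable {K : Type u} [Field K]
variable {M : Type u} [AddCommGroup M] [Module K M]
variable {N : Type u} [AddCommGroup N] [Module K N]
variable {P : Type u} [AddCommGroup P] [Module K P]

lemma sum_Icc05 {Q : Type*} [AddCommMonoid Q] (f : ℤ → Q) :
    ∑ j ∈ Finset.Icc (0 : ℤ) 5, f j = f 0 + (f 1 + (f 2 + (f 3 + (f 4 + f 5)))) := by
  have hI : Finset.Icc (0 : ℤ) 5 = {0, 1, 2, 3, 4, 5} := by decide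
  rw [hI, Finset.sum_insert (by decide), Finset.sum_insert (by decide),
    Finset.sum_insert (by decide), Finset.sum_insert (by decide), Finset.sum_insert (by decide),
    Finset.sum_singleton]

namespace BRep

/-- A linear map commuting with the operators `E`, `X`, `T`. -/
structure IsHom (ρ : BRep K M) (σ : BRep K N) (f : M →ₗ[K] N) : Prop where
  E : ∀ j v, f (ρ.E j v) = σ.E j (f v)
  X : ∀ i j v, f (ρ.X i j v) = σ.X i j (f v)
  T : ∀ v, f (ρ.T v) = σ.T (f v)

/-- Let the lowering operators act by zero. -/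
def toRep (β : BRep K M) : Rep K M where
  toBRep := β
  A := 0
  B := 0
  AE _ _ _ := by simp
  BE _ _ _ := by simp
  XA _ _ _ _ := by simp
  XB _ _ _ _ := by simp
  TA _ _ := by simp
  TB _ _ := by simp
  AA _ _ _ := by simp
  AB _ _ _ := by simp
  BA _ _ _ := by simp
  BB _ _ _ := by simp
  BE0 _ _ := by simp

@[simp] lemma toRep_E (β : BRep K M) : β.toRep.E = β.E := rfl
@[simp] lemma toRep_X (β : BRep K M) : β.toRep.X = β.X := rfl
@[simp] lemma toRep_T (β : BRep K M) : β.toRep.T = β.T := rfl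
@[simp] lemma toRep_A (β : BRep K M) : β.toRep.A = 0 := rfl
@[simp] lemma toRep_B (β : BRep K M) : β.toRep.B = 0 := rfl

lemma IsHom.toRep {β : BRep K M} {γ : BRep K N} {f : M →ₗ[K] N} (h : IsHom β γ f) :
    Rep.IsHom β.toRep γ.toRep f where
  E := h.E
  X := h.X
  T := h.T
  A _ _ := by simp
  B _ _ := by simp

/-- The product. -/
@[simps]
def prod (β : BRep K M) (γ : BRep K N) : BRep K (M × N) where
  E j := LinearMap.prodMap (β.E j) (γ.E j)
  X i j := LinearMap.prodMap (β.X i j) (γ.X i j)
  T := LinearMap.prodMap β.T γ.T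
  E_self j v := by simp [β.E_self, γ.E_self]
  E_ne i j h v := by simp [β.E_ne i j h, γ.E_ne i j h]
  E_out j h v := by simp [β.E_out j h, γ.E_out j h]
  E_sum v := by
    have h1 := β.E_sum v.1
    have h2 := γ.E_sum v.2
    ext <;> simp [Prod.fst_sum, Prod.snd_sum, h1, h2]
  XE i j k v := by simp [β.XE, γ.XE]
  TE k v := by simp [β.TE, γ.TE]
  XX i j k l v := by
    ext
    · simpa using β.XX i j k l v.1
    · simpa using γ.XX i j k l v.2
  TT v := by simp [β.TT, γ.TT]
  TX i j v := by
    ext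
    · simpa [Prod.fst_sum] using β.TX i j v.1
    · simpa [Prod.snd_sum] using γ.TX i j v.2

/-- The functor `E`: the sum of the images of the lowering operators in the induced module. -/
def EE (β : BRep K N) (h0 : ∀ v, β.E 0 v = 0) : BRep K ((Fin 2 → N) × (Fin 2 → N)) where
  E j :=
    { toFun := fun p => (fun m => β.E (j + 1) (p.1 m), fun m => β.E j (p.2 m))
      map_add' := fun p q => by ext m <;> simp
      map_smul' := fun c p => by ext m <;> simp }
  X i j :=
    { toFun := fun p => (fun m => β.X i j (p.1 m), fun m => - β.X i j (p.2 m)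
        + (if i = j then p.1 m else 0) - (if i = m then p.1 j else 0))
      map_add' := fun p q => by
        ext m
        · simp
        · simp only [Prod.snd_add, Pi.add_apply, map_add, Prod.fst_add]
          split_ifs <;> abel
      map_smul' := fun c p => by
        ext m
        · simp
        · simp only [Prod.smul_snd, Pi.smul_apply, map_smul, Prod.smul_fst, RingHom.id_apply]
          split_ifs <;> simp [smul_sub, smul_add] }
  T :=
    { toFun := fun p => (fun m => β.T (p.1 m) - ∑ q, β.X q m (p.1 q),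
        fun m => - β.T (p.2 m) + ∑ q, β.X q m (p.2 q))
      map_add' := fun p q => by
        ext m <;> simp [Finset.sum_add_distrib] <;> abel
      map_smul' := fun c p => by
        ext m <;> simp [smul_sub, smul_add] }
  E_self j v := by ext m <;> simp [β.E_self]
  E_ne i j h v := by
    ext m
    · simpa using β.E_ne (i + 1) (j + 1) (by omega) (v.1 m)
    · simpa using β.E_ne i j h (v.2 m)
  E_out j h v := by
    ext m
    · rcases h with h | h
      · rcases eq_or_ne j (-1) with rfl | hj
        · simpa using h0 (v.1 m)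
        · simpa using β.E_out (j + 1) (by omega) (v.1 m)
      · simpa using β.E_out (j + 1) (by omega) (v.1 m)
    · simpa using β.E_out j h (v.2 m)
  E_sum v := by
    ext m
    · have h1 := β.E_sum (v.1 m)
      have h2 := β.E_out 6 (by omega) (v.1 m)
      have h3 := h0 (v.1 m)
      rw [sum_Icc05] at h1 ⊢
      simp only [LinearMap.coe_mk, AddHom.coe_mk, Prod.fst_add, Pi.add_apply]
      norm_num
      rw [h3, zero_add] at h1
      rw [h2, add_zero, h1]
    · simpa [Prod.snd_sum, Finset.sum_apply] using β.E_sum (v.2 m)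
  XE i j k v := by
    ext m
    · simp [β.XE]
    · simp only [LinearMap.coe_mk, AddHom.coe_mk, map_add, map_sub, map_neg, β.XE]
      split_ifs <;> simp
  TE k v := by ext m <;> simp [β.XE, β.TE]
  XX i j k l v := by
    ext m
    · simpa using β.XX i j k l (v.1 m)
    · have h1 := β.XX i j k l (v.2 m)
      simp only [LinearMap.coe_mk, AddHom.coe_mk, map_add, map_sub, map_neg, Prod.snd_neg,
        Pi.neg_apply, h1, neg_neg, apply_ite (β.X i j), apply_ite (β.X k l), map_zero]
      split_ifs <;> abel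
  TT v := by
    ext m
    · simp only [LinearMap.coe_mk, AddHom.coe_mk, map_sub, map_add, β.TT, β.TX, Fin.sum_univ_two,
        β.XX 0 m 0 0, β.XX 0 m 1 0, β.XX 1 m 0 1, β.XX 1 m 1 1, Prod.fst_zero, Pi.zero_apply]
      abel
    · simp only [LinearMap.coe_mk, AddHom.coe_mk, map_sub, map_add, map_neg, β.TT, β.TX,
        Fin.sum_univ_two, β.XX 0 m 0 0, β.XX 0 m 1 0, β.XX 1 m 0 1, β.XX 1 m 1 1, Prod.snd_zero,
        Pi.zero_apply]
      abel
  TX i j v := by
    ext m
    · simp only [LinearMap.coe_mk, AddHom.coe_mk, map_sub, map_add, β.TX, Fin.sum_univ_two,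
        Prod.fst_sub, Prod.fst_neg, Prod.fst_add, Pi.sub_apply, Pi.neg_apply, Pi.add_apply]
      rw [β.XX i j 0 m, β.XX i j 1 m]
      abel
    · simp only [LinearMap.coe_mk, AddHom.coe_mk, map_sub, map_add, map_neg, β.TX,
        Fin.sum_univ_two, Prod.snd_sub, Prod.snd_neg, Prod.snd_add, Pi.sub_apply,
        Pi.neg_apply, Pi.add_apply]
      rw [β.XX i j 0 m, β.XX i j 1 m]
      fin_cases i <;> fin_cases j <;> fin_cases m <;> simp <;> abel

lemma EE_E_apply (β : BRep K N) (h0) (j : ℤ) (v) : (β.EE h0).E j v =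
    (fun m => β.E (j + 1) (v.1 m), fun m => β.E j (v.2 m)) := rfl

lemma EE_X_apply (β : BRep K N) (h0) (i j) (v) : (β.EE h0).X i j v =
    (fun m => β.X i j (v.1 m), fun m => - β.X i j (v.2 m)
        + (if i = j then v.1 m else 0) - (if i = m then v.1 j else 0)) := rfl

lemma EE_T_apply (β : BRep K N) (h0) (v) : (β.EE h0).T v =
    (fun m => β.T (v.1 m) - ∑ q, β.X q m (v.1 q),
        fun m => - β.T (v.2 m) + ∑ q, β.X q m (v.2 q)) := rfl

/-- The induced representation. -/
def ind (β : BRep K N) (h0 : ∀ v, β.E 0 v = 0) : Rep K (N × ((Fin 2 → N) × (Fin 2 → N))) where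
  toBRep := β.prod (β.EE h0)
  A m := LinearMap.inr K _ _ ∘ₗ LinearMap.inl K _ _ ∘ₗ LinearMap.single K (fun _ => N) m ∘ₗ
    LinearMap.fst K _ _
  B m := LinearMap.inr K _ _ ∘ₗ LinearMap.inr K _ _ ∘ₗ LinearMap.single K (fun _ => N) m ∘ₗ
    LinearMap.fst K _ _
  AE m k v := by
    ext q <;> simp [EE_E_apply]
    rcases eq_or_ne q m with rfl | h <;> simp_all
  BE m k v := by
    ext q <;> simp [EE_E_apply]
    rcases eq_or_ne q m with rfl | h <;> simp_all
  XA i j m v := by
    ext q
    · simp only [prod_X, LinearMap.prodMap_apply, LinearMap.comp_apply, LinearMap.inr_apply]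
      split_ifs <;> simp
    · fin_cases i <;> fin_cases j <;> fin_cases m <;> fin_cases q <;> simp [EE_X_apply]
    · fin_cases i <;> fin_cases j <;> fin_cases m <;> fin_cases q <;> simp [EE_X_apply]
  XB i j m v := by
    ext q
    · simp
    · simp [EE_X_apply]
    · fin_cases m <;> fin_cases q <;> simp [EE_X_apply]
  TA m v := by
    ext q
    · simp [Fin.sum_univ_two]
    · fin_cases m <;> fin_cases q <;> simp [EE_T_apply, Fin.sum_univ_two]
    · simp [EE_T_apply, Fin.sum_univ_two]
  TB m v := by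
    ext q
    · simp [Fin.sum_univ_two]
    · simp [EE_T_apply, Fin.sum_univ_two]
    · fin_cases m <;> fin_cases q <;> simp [EE_T_apply, Fin.sum_univ_two]
  AA m l v := by simp
  AB m l v := by simp
  BA m l v := by simp
  BB m l v := by simp
  BE0 m v := by simp [h0]

lemma ind_A_apply (β : BRep K N) (h0) (m) (v) : (β.ind h0).A m v =
    (0, (Pi.single m v.1, 0)) := rfl

lemma ind_B_apply (β : BRep K N) (h0) (m) (v) : (β.ind h0).B m v =
    (0, (0, Pi.single m v.1)) := rfl

/-- The inclusion of `EE` in the induced representation. -/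
lemma inr_isHom (β : BRep K N) (h0) :
    Rep.IsHom (β.EE h0).toRep (β.ind h0) (LinearMap.inr K N _) where
  E j v := by simp [ind]
  X i j v := by simp [ind]
  T v := by simp [ind]
  A m v := by simp [ind_A_apply]; rfl
  B m v := by simp [ind_B_apply]; rfl

/-- The projection of the induced representation. -/
lemma fst_isHom (β : BRep K N) (h0) :
    Rep.IsHom (β.ind h0) β.toRep (LinearMap.fst K N _) where
  E j v := by simp [ind]
  X i j v := by simp [ind]
  T v := by simp [ind]
  A m v := by simp [ind_A_apply]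
  B m v := by simp [ind_B_apply]

lemma indSeq_aux (y : N × ((Fin 2 → N) × (Fin 2 → N))) :
    LinearMap.fst K N ((Fin 2 → N) × (Fin 2 → N)) y = 0 ↔
      ∃ x, LinearMap.inr K N ((Fin 2 → N) × (Fin 2 → N)) x = y := by
  constructor
  · intro h
    exact ⟨y.2, Prod.ext h.symm rfl⟩
  · rintro ⟨x, rfl⟩
    simp

/-- `0 → EE N → ind N → N → 0` is exact. -/
lemma indSeq_shortExact (β : BRep K N) (h0) :
    (Rep.seq (β.inr_isHom h0) (β.fst_isHom h0) indSeq_aux).ShortExact :=
  Rep.seq_shortExact _ _ _ LinearMap.inr_injective LinearMap.fst_surjective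

/-- The map on induced representations. -/
def indMap (f : M →ₗ[K] N) : M × ((Fin 2 → M) × (Fin 2 → M)) →ₗ[K]
    N × ((Fin 2 → N) × (Fin 2 → N)) :=
  LinearMap.prodMap f (LinearMap.prodMap (f.compLeft (Fin 2)) (f.compLeft (Fin 2)))

lemma indMap_apply (f : M →ₗ[K] N) (v) : indMap f v =
    (f v.1, (fun m => f (v.2.1 m), fun m => f (v.2.2 m))) := rfl

lemma IsHom.ind {β : BRep K M} {γ : BRep K N} {f : M →ₗ[K] N} (h : IsHom β γ f) (h0) (h0') :
    Rep.IsHom (β.ind h0) (γ.ind h0') (indMap f) where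
  E j v := by
    ext m <;> simp [indMap_apply, BRep.ind, EE_E_apply, h.E]
  X i j v := by
    ext m
    · simp [indMap_apply, BRep.ind, h.X]
    · simp [indMap_apply, BRep.ind, EE_X_apply, h.X]
    · simp only [indMap_apply, BRep.ind, prod_X, LinearMap.prodMap_apply, EE_X_apply, map_add,
        map_sub, map_neg, h.X, apply_ite f, map_zero]
  T v := by
    ext m
    · simp [indMap_apply, BRep.ind, h.T]
    · simp [indMap_apply, BRep.ind, EE_T_apply, h.T, h.X]
    · simp [indMap_apply, BRep.ind, EE_T_apply, h.T, h.X]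
  A m v := by
    ext q
    · simp [indMap_apply, ind_A_apply]
    · fin_cases m <;> fin_cases q <;> simp [indMap_apply, ind_A_apply]
    · simp [indMap_apply, ind_A_apply]
  B m v := by
    ext q
    · simp [indMap_apply, ind_B_apply]
    · simp [indMap_apply, ind_B_apply]
    · fin_cases m <;> fin_cases q <;> simp [indMap_apply, ind_B_apply]

lemma indMap_exact {f : M →ₗ[K] N} {g : N →ₗ[K] P} (h : ∀ y, g y = 0 ↔ ∃ x, f x = y)
    (y) : indMap g y = 0 ↔ ∃ x, indMap f x = y := by
  constructor
  · intro hy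
    rw [indMap_apply, Prod.ext_iff, Prod.ext_iff, funext_iff, funext_iff] at hy
    obtain ⟨h1, h2, h3⟩ := hy
    obtain ⟨x1, hx1⟩ := (h _).1 h1
    choose x2 hx2 using fun m => (h _).1 (h2 m)
    choose x3 hx3 using fun m => (h _).1 (h3 m)
    exact ⟨(x1, x2, x3), by ext <;> simp [indMap_apply, hx1, hx2, hx3]⟩
  · rintro ⟨x, rfl⟩
    have := fun z => (h (f z)).2 ⟨z, rfl⟩
    ext <;> simp [indMap_apply, this]

lemma indMap_injective {f : M →ₗ[K] N} (h : Function.Injective f) :
    Function.Injective (indMap f) := by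
  intro x y hxy
  rw [indMap_apply, indMap_apply, Prod.ext_iff, Prod.ext_iff, funext_iff, funext_iff] at hxy
  obtain ⟨h1, h2, h3⟩ := hxy
  exact Prod.ext (h h1) (Prod.ext (funext fun m => h (h2 m)) (funext fun m => h (h3 m)))

lemma indMap_surjective {f : M →ₗ[K] N} (h : Function.Surjective f) :
    Function.Surjective (indMap f) := by
  intro y
  obtain ⟨x1, hx1⟩ := h y.1
  choose x2 hx2 using fun m => h (y.2.1 m)
  choose x3 hx3 using fun m => h (y.2.2 m)
  exact ⟨(x1, x2, x3), by ext <;> simp [indMap_apply, hx1, hx2, hx3]⟩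

/-- The universal property of the induced representation. -/
def indLift (σ : Rep K P) (f : N →ₗ[K] P) : N × ((Fin 2 → N) × (Fin 2 → N)) →ₗ[K] P where
  toFun v := f v.1 + ∑ m, σ.A m (f (v.2.1 m)) + ∑ m, σ.B m (f (v.2.2 m))
  map_add' v w := by
    simp [Fin.sum_univ_two]
    abel
  map_smul' c v := by
    simp [Fin.sum_univ_two, smul_add]

lemma indLift_apply (σ : Rep K P) (f : N →ₗ[K] P) (v) : indLift σ f v =
    f v.1 + ∑ m, σ.A m (f (v.2.1 m)) + ∑ m, σ.B m (f (v.2.2 m)) := rfl

lemma indLift_isHom (β : BRep K N) (h0) (σ : Rep K P) (f : N →ₗ[K] P)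
    (hf : IsHom β σ.toBRep f) : Rep.IsHom (β.ind h0) σ (indLift σ f) where
  E j v := by
    simp [indLift_apply, Fin.sum_univ_two, BRep.ind, EE_E_apply, hf.E, σ.AE, σ.BE]
  X i j v := by
    simp only [indLift_apply, Fin.sum_univ_two, BRep.ind, prod_X, LinearMap.prodMap_apply,
      EE_X_apply, map_add, map_sub, map_neg, hf.X, σ.XA, σ.XB]
    fin_cases i <;> fin_cases j <;> simp <;> abel
  T v := by
    simp only [indLift_apply, Fin.sum_univ_two, BRep.ind, prod_T, LinearMap.prodMap_apply,
      EE_T_apply, map_add, map_sub, map_neg, hf.X, hf.T, σ.TA, σ.TB]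
    abel
  A m v := by
    have h : ∀ w, σ.A m (σ.A 0 w) = 0 ∧ σ.A m (σ.A 1 w) = 0 ∧ σ.A m (σ.B 0 w) = 0 ∧
      σ.A m (σ.B 1 w) = 0 := fun w => ⟨σ.AA _ _ _, σ.AA _ _ _, σ.AB _ _ _, σ.AB _ _ _⟩
    simp only [indLift_apply, Fin.sum_univ_two, ind_A_apply, map_add, h, map_zero]
    fin_cases m <;> simp
  B m v := by
    have h : ∀ w, σ.B m (σ.A 0 w) = 0 ∧ σ.B m (σ.A 1 w) = 0 ∧ σ.B m (σ.B 0 w) = 0 ∧
      σ.B m (σ.B 1 w) = 0 := fun w => ⟨σ.BA _ _ _, σ.BA _ _ _, σ.BB _ _ _, σ.BB _ _ _⟩
    simp only [indLift_apply, Fin.sum_univ_two, ind_B_apply, map_add, h, map_zero]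
    fin_cases m <;> simp

end BRep

end Vale.Agent.P176
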