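import Vale.Agent.P176.Fock

/-!
P176.  The key isomorphism.
-/

namespace Vale.Agent.P176

open CategoryTheory

universe u

variable {K : Type u} [Field K] [CharZero K]

/-- The divergence. -/
noncomputable def fpi (K : Type u) [Field K] (n : ℕ) :
    (Fin 2 → Fin (n + 1) → RR K) →ₗ[K] (Fin n → RR K) :=
  ∑ k, dx K n k ∘ₗ LinearMap.proj k

/-- The Euler map. -/
noncomputable def fiota (K : Type u) [Field K] (n : ℕ) :
    (Fin n → RR K) →ₗ[K] (Fin 2 → Fin (n + 1) → RR K) :=
  LinearMap.pi fun k => mx K n k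

/-- The operator `ι π - (n + 1)`. -/
noncomputable def fom (K : Type u) [Field K] (n : ℕ) :
    (Fin 2 → Fin (n + 1) → RR K) →ₗ[K] (Fin 2 → Fin (n + 1) → RR K) :=
  fiota K n ∘ₗ fpi K n - ((n : K) + 1) • LinearMap.id

lemma fpi_apply (n : ℕ) (v) (s : Fin n) : fpi K n v s = ∑ k, dx K n k (v k) s := by
  simp [fpi]

lemma fpi_apply' (n : ℕ) (v) : fpi K n v = ∑ k, dx K n k (v k) := by
  simp [fpi]

lemma fiota_apply (n : ℕ) (v) (k : Fin 2) : fiota K n v k = mx K n k v := rfl

lemma fom_apply (n : ℕ) (v) : fom K n v = fiota K n (fpi K n v) - ((n : K) + 1) • v := rfl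

lemma dx_fockT (n : ℕ) (m : Fin 2) (f : Fin (n + 1) → RR K) (s : Fin n) :
    dx K n m (fockT K (n + 1) f) s = fockT K n (dx K n m f) s + ∑ l, xi m l (dx K n l f s) := by
  rw [fockT_apply, map_add, dx_comp, fockT_apply']
  simp only [map_sum, dx_comp, dx_gl, Pi.add_apply, Finset.sum_apply, map_add,
    Finset.sum_add_distrib, add_assoc]
  congr 2
  fin_cases m <;> simp [Fin.sum_univ_two]

lemma fockT_mx (n : ℕ) (m : Fin 2) (f : Fin n → RR K) (s : Fin (n + 1)) :
    fockT K (n + 1) (mx K n m f) s = mx K n m (fockT K n f) s + ∑ k, xi k m (mx K n k f s) := by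
  rw [fockT_apply n, map_add, mx_comp, fockT_apply']
  simp only [map_sum, mx_comp, gl_mx, Pi.add_apply, Finset.sum_apply, map_add,
    Finset.sum_add_distrib, add_assoc]
  congr 2
  fin_cases m <;> simp [Fin.sum_univ_two]

lemma fpi_isHom (n : ℕ) : BRep.IsHom (fock K (n + 1)).V (fock K n) (fpi K n) where
  E j v := by
    ext s
    rw [fpi_apply, fock_E_apply, fpi_apply, map_sum]
    refine Finset.sum_congr rfl fun k _ => ?_
    exact congrFun (dx_comp n k (pr j) (v k)) s
  X i j v := by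
    ext s
    rw [fpi_apply, fock_X_apply, fpi_apply, map_sum]
    refine Finset.sum_congr rfl fun k _ => ?_
    exact congrFun (dx_comp n k (xi i j) (v k)) s
  T v := by
    ext s
    rw [fpi_apply, fock_T_apply, fpi_apply', map_sum]
    have h : ∀ m q, dx K n m ((fock K (n + 1)).X q m (v q)) s = xi q m (dx K n m (v q) s) :=
      fun m q => congrFun (dx_comp n m (xi q m) (v q)) s
    simp only [BRep.V_T_apply, fock_T_apply, map_sub, map_add, Pi.sub_apply, Pi.add_apply,
      dx_fockT, Fin.sum_univ_two, h]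
    abel

lemma fiota_isHom (n : ℕ) : BRep.IsHom (fock K n) (fock K (n + 1)).V (fiota K n) where
  E j v := by
    ext m s
    exact congrFun (mx_comp n m (pr j) v) s
  X i j v := by
    ext m s
    exact congrFun (mx_comp n m (xi i j) v) s
  T v := by
    ext m s
    simp only [BRep.V_T_apply, fock_T_apply, fiota_apply, Pi.sub_apply, Finset.sum_apply,
      fockT_mx, fock_X_apply]
    abel

lemma fpi_fiota (n : ℕ) (v) : fpi K n (fiota K n v) = ((n : K) + 1) • v := by
  rw [fpi_apply']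
  exact sum_dx_mx n v

lemma fom_isHom (n : ℕ) : BRep.IsHom (fock K (n + 1)).V (fock K (n + 1)).V (fom K n) where
  E j v := by
    rw [fom_apply, fom_apply, (fpi_isHom n).E, (fiota_isHom n).E, map_sub, map_smul]
  X i j v := by
    rw [fom_apply, fom_apply, (fpi_isHom n).X, (fiota_isHom n).X, map_sub, map_smul]
  T v := by
    rw [fom_apply, fom_apply, (fpi_isHom n).T, (fiota_isHom n).T, map_sub, map_smul]

/-- The contraction operator. -/
noncomputable def ZZ (K : Type u) [Field K] (n : ℕ) :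
    (Fin 2 → Fin n → RR K) →ₗ[K] (Fin 2 → Fin n → RR K) where
  toFun a := fun q s => ∑ i, del i i (a q s) - ∑ j, del q j (a j s)
  map_add' a b := by
    ext q s
    simp [Fin.sum_univ_two]
    abel
  map_smul' c a := by
    ext q s
    simp [Fin.sum_univ_two, smul_sub, smul_add]

lemma ZZ_apply (n : ℕ) (a) (q) (s) : ZZ K n a q s =
    ∑ i, del i i (a q s) - ∑ j, del q j (a j s) := rfl

lemma ZZ_E (n : ℕ) (j : ℤ) (a) : ZZ K n ((fock K n).V.E j a) = (fock K n).V.E (j - 1)
    (ZZ K n a) := by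
  ext q s
  change ∑ i, del i i (pr j (a q s)) - ∑ i, del q i (pr j (a i s)) =
    pr (j - 1) (∑ i, del i i (a q s) - ∑ i, del q i (a i s))
  simp only [map_sub, map_sum, pr_del, sub_add_cancel]

/-- The matrix part of the commutation relation between `X` and the lowering operators. -/
def zz (K : Type u) [Field K] {N : Type u} [AddCommGroup N] [Module K N] (i j : Fin 2) :
    (Fin 2 → N) →ₗ[K] (Fin 2 → N) where
  toFun a := fun m => (if i = j then a m else 0) - (if i = m then a j else 0)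
  map_add' a b := by
    ext m
    simp only [Pi.add_apply]
    split_ifs <;> abel
  map_smul' c a := by
    ext m
    simp only [Pi.smul_apply, RingHom.id_apply]
    split_ifs <;> simp [smul_sub]

lemma zz_apply {N : Type u} [AddCommGroup N] [Module K N] (i j : Fin 2) (a : Fin 2 → N)
    (m : Fin 2) : zz K i j a m = (if i = j then a m else 0) - (if i = m then a j else 0) := rfl

lemma T_zz {N : Type u} [AddCommGroup N] [Module K N] (β : BRep K N) (i j : Fin 2)
    (v : Fin 2 → N) : β.V.T (zz K i j v) = zz K i j (β.V.T v) +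
      ∑ k, (zz K i k (β.V.X k j v) - β.V.X i k (zz K k j v)) := by
  ext m
  simp only [BRep.V_T_apply, zz_apply, BRep.V_X_apply, Finset.sum_apply, Pi.add_apply,
    Pi.sub_apply, Fin.sum_univ_two]
  fin_cases i <;> fin_cases j <;> fin_cases m <;> simp <;> abel

lemma ZZ_X (n : ℕ) (i j : Fin 2) (a) : ZZ K n ((fock K n).V.X i j a) =
    zz K i j a - (fock K n).V.X i j (ZZ K n a) := by
  ext q s
  rw [Pi.sub_apply, zz_apply]
  change ∑ p, del p p (xi i j (a q s)) - ∑ p, del q p (xi i j (a p s)) =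
    ((if i = j then a q else 0) - (if i = q then a j else 0) : Fin n → RR K) s -
    xi i j (∑ p, del p p (a q s) - ∑ p, del q p (a p s))
  fin_cases i <;> fin_cases j <;> fin_cases q <;> simp [Fin.sum_univ_two, del_xi] <;> abel

lemma ZZ_vac (n : ℕ) (a : Fin 2 → Fin (n + 1) → RR K)
    (h1 : ∀ i j q s, del i j (a q s) = 0) (h2 : ∀ q s, dR (a q s) = 0) :
    ZZ K (n + 1) ((fock K (n + 1)).V.T a) + (fock K (n + 1)).V.T (ZZ K (n + 1) a)
      + fom K n a = 0 := by
  have h3 : ZZ K (n + 1) a = 0 := by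
    ext q s
    simp [ZZ_apply, h1]
  have h4 : ∀ i j k l q s, del i j (gl K (n + 1) k l (a q) s) = 0 := by
    intro i j k l q s
    have := congrFun (gl_comp (n + 1) k l (del i j) (a q)) s
    rw [← this]
    have h5 : (fun s => del i j (a q s)) = 0 := by
      ext s; exact h1 i j q s
    rw [h5, map_zero]
    rfl
  have h5 : ∀ q s, ∑ k, gl K (n + 1) k k (a q) s = (n : K) • a q s := by
    intro q s
    have := congrFun (sum_gl (K := K) n (a q)) s
    simpa using this
  have h6 : ∀ q s, fiota K n (fpi K n a) q s = ∑ j, gl K (n + 1) q j (a j) s := by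
    intro q s
    rw [fiota_apply, fpi_apply', map_sum, Finset.sum_apply]
    refine Finset.sum_congr rfl fun j _ => ?_
    rw [gl_succ]
  have h7 : ∀ q s, (fock K (n + 1)).V.T a q s =
      ∑ k, ∑ l, xi k l (gl K (n + 1) k l (a q) s) - ∑ p, xi p q (a p s) := by
    intro q s
    rw [BRep.V_T_apply]
    simp only [Pi.sub_apply, fock_T_apply', h2, zero_add, Finset.sum_apply, fock_X_apply]
  rw [h3, map_zero, add_zero]
  ext q s
  rw [Pi.add_apply, Pi.add_apply, ZZ_apply, fom_apply]
  simp only [Pi.sub_apply, Pi.smul_apply, h6, Pi.zero_apply, h7]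
  have h8 := h5 q s
  rw [Fin.sum_univ_two] at h8
  simp only [Fin.sum_univ_two, map_sub, map_add, del_xi, h1, h4, map_zero, sub_zero]
  rw [add_smul, ← h8]
  fin_cases q <;> simp <;> abel

lemma ZZ_T (n : ℕ) (a : Fin 2 → Fin (n + 1) → RR K) :
    ZZ K (n + 1) ((fock K (n + 1)).V.T a) + (fock K (n + 1)).V.T (ZZ K (n + 1) a)
      + fom K n a = 0 := by
  refine (fockVFree (K := K) (n + 1)).gen (LinearMap.ker
    (ZZ K (n + 1) ∘ₗ (fock K (n + 1)).V.T + (fock K (n + 1)).V.T ∘ₗ ZZ K (n + 1) + fom K n))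
    ?_ ?_ a
  · rintro ⟨q, s⟩
    refine ZZ_vac n _ ?_ ?_
    · intro i j q' s'
      change del i j ((Pi.single q (Pi.single s 1) : Fin 2 → Fin (n + 1) → RR K) q' s') = 0
      rcases eq_or_ne q' q with rfl | h
      · rcases eq_or_ne s' s with rfl | h
        · simp [del_one]
        · simp [Pi.single_eq_of_ne h]
      · simp [Pi.single_eq_of_ne h]
    · intro q' s'
      change dR ((Pi.single q (Pi.single s 1) : Fin 2 → Fin (n + 1) → RR K) q' s') = 0
      rcases eq_or_ne q' q with rfl | h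
      · rcases eq_or_ne s' s with rfl | h
        · simp [dR_one]
        · simp [Pi.single_eq_of_ne h]
      · simp [Pi.single_eq_of_ne h]
  · intro i j v hv
    set β := fock K (n + 1) with hβ
    change ZZ K (n + 1) (β.V.T v) + β.V.T (ZZ K (n + 1) v) + fom K n v = 0 at hv
    change ZZ K (n + 1) (β.V.T (β.V.X i j v)) + β.V.T (ZZ K (n + 1) (β.V.X i j v)) +
      fom K n (β.V.X i j v) = 0
    have h1 : fom K n (β.V.X i j v) = β.V.X i j (fom K n v) := (fom_isHom n).X i j v
    have h2 := congrArg (β.V.X i j) hv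
    rw [map_add, map_add, map_zero] at h2
    have h3 := T_zz β i j v
    have h4 : ∀ i j a, ZZ K (n + 1) (β.V.X i j a) = zz K i j a - β.V.X i j (ZZ K (n + 1) a) :=
      fun i j a => ZZ_X (n + 1) i j a
    rw [h1, β.V.TX, h4, map_sub, map_sub, map_neg, h4, β.V.TX, map_sum, h3]
    simp only [h4, Fin.sum_univ_two, map_sub]
    rw [← h2]
    abel

/-- The key isomorphism. -/
theorem fock_key (n : ℕ) : ∃ (φ : ((Fin 2 → Fin (n + 1) → RR K) × (Fin 2 → Fin (n + 1) → RR K)) →ₗ[K]
      ((Fin 2 → Fin (n + 1) → RR K) × (Fin 2 → Fin (n + 1) → RR K)))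
    (ψ : ((Fin 2 → Fin (n + 1) → RR K) × (Fin 2 → Fin (n + 1) → RR K)) →ₗ[K]
      ((Fin 2 → Fin (n + 1) → RR K) × (Fin 2 → Fin (n + 1) → RR K))),
    BRep.IsHom (((fock K (n + 1)).S (fock_E5 _)).EE (BRep.S_E0 _ _))
      ((fock K (n + 1)).V.D (BRep.V_E5 (fock_E5 _)) (fom K n) (fom_isHom n)) φ ∧
    BRep.IsHom ((fock K (n + 1)).V.D (BRep.V_E5 (fock_E5 _)) (fom K n) (fom_isHom n))
      (((fock K (n + 1)).S (fock_E5 _)).EE (BRep.S_E0 _ _)) ψ ∧
    (∀ v, ψ (φ v) = v) ∧ (∀ v, φ (ψ v) = v) := by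
  let φ : ((Fin 2 → Fin (n + 1) → RR K) × (Fin 2 → Fin (n + 1) → RR K)) →ₗ[K]
      ((Fin 2 → Fin (n + 1) → RR K) × (Fin 2 → Fin (n + 1) → RR K)) :=
    { toFun := fun v => (v.1, v.2 - ZZ K (n + 1) v.1)
      map_add' := fun v w => by ext <;> simp; abel
      map_smul' := fun c v => by ext <;> simp [smul_sub] }
  let ψ : ((Fin 2 → Fin (n + 1) → RR K) × (Fin 2 → Fin (n + 1) → RR K)) →ₗ[K]
      ((Fin 2 → Fin (n + 1) → RR K) × (Fin 2 → Fin (n + 1) → RR K)) :=
    { toFun := fun v => (v.1, v.2 + ZZ K (n + 1) v.1)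
      map_add' := fun v w => by ext <;> simp; abel
      map_smul' := fun c v => by ext <;> simp [smul_add] }
  have hφψ : ∀ v, φ (ψ v) = v := by
    intro v
    change (v.1, v.2 + ZZ K (n + 1) v.1 - ZZ K (n + 1) v.1) = v
    simp
  have hψφ : ∀ v, ψ (φ v) = v := by
    intro v
    change (v.1, v.2 - ZZ K (n + 1) v.1 + ZZ K (n + 1) v.1) = v
    simp
  have hφ : BRep.IsHom (((fock K (n + 1)).S (fock_E5 _)).EE (BRep.S_E0 _ _))
      ((fock K (n + 1)).V.D (BRep.V_E5 (fock_E5 _)) (fom K n) (fom_isHom n)) φ := by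
    refine ⟨?_, ?_, ?_⟩
    · intro j v
      rw [BRep.EE_E_apply, BRep.D_E_apply]
      simp only [BRep.S_E, add_sub_cancel_right]
      change ((fock K (n + 1)).V.E j v.1, (fock K (n + 1)).V.E (j - 1) v.2 -
        ZZ K (n + 1) ((fock K (n + 1)).V.E j v.1)) = ((fock K (n + 1)).V.E j v.1,
          (fock K (n + 1)).V.E (j - 1) (v.2 - ZZ K (n + 1) v.1))
      rw [ZZ_E, map_sub]
    · intro i j v
      rw [BRep.EE_X_apply, BRep.D_X_apply]
      simp only [BRep.S_X]
      change ((fock K (n + 1)).V.X i j v.1,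
        (fun m => - (fock K (n + 1)).X i j (v.2 m) + (if i = j then v.1 m else 0)
          - (if i = m then v.1 j else 0)) - ZZ K (n + 1) ((fock K (n + 1)).V.X i j v.1)) =
        ((fock K (n + 1)).V.X i j v.1, - (fock K (n + 1)).V.X i j (v.2 - ZZ K (n + 1) v.1))
      rw [ZZ_X]
      refine Prod.ext rfl ?_
      funext m
      simp only [Pi.sub_apply, Pi.neg_apply, map_sub, zz_apply, BRep.V_X_apply]
      abel
    · intro v
      rw [BRep.EE_T_apply, BRep.D_T_apply]
      simp only [BRep.S_X, BRep.S_T]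
      change ((fock K (n + 1)).V.T v.1,
        (fun m => - (fock K (n + 1)).T (v.2 m) + ∑ q, (fock K (n + 1)).X q m (v.2 q))
          - ZZ K (n + 1) ((fock K (n + 1)).V.T v.1)) =
        ((fock K (n + 1)).V.T v.1, fom K n v.1 -
          (fock K (n + 1)).V.T (v.2 - ZZ K (n + 1) v.1))
      refine Prod.ext rfl ?_
      have h1 := ZZ_T n v.1
      have h2 : ZZ K (n + 1) ((fock K (n + 1)).V.T v.1) = - ((fock K (n + 1)).V.T
          (ZZ K (n + 1) v.1)) - fom K n v.1 := by
        rw [← sub_eq_zero, ← h1]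
        abel
      rw [h2]
      funext m
      simp only [Pi.sub_apply, Pi.neg_apply, map_sub, BRep.V_T_apply]
      abel
  refine ⟨φ, ψ, hφ, ⟨?_, ?_, ?_⟩, hψφ, hφψ⟩
  · intro j v
    have := hφ.E j (ψ v)
    rw [hφψ] at this
    rw [← this, hψφ]
  · intro i j v
    have := hφ.X i j (ψ v)
    rw [hφψ] at this
    rw [← this, hψφ]
  · intro v
    have := hφ.T (ψ v)
    rw [hφψ] at this
    rw [← this, hψφ]

end Vale.Agent.P176
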