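import Vale.Agent.P176.Upper

/-!
P176.  Lower bound for the projective dimension of `NN n`.
-/

namespace Vale.Agent.P176

open CategoryTheory

universe u

variable {K : Type u} [Field K] [CharZero K]

lemma ext_step {S : ShortComplex (ModuleCat.{u} (Alg K))} (hS : S.ShortExact)
    {Y : ModuleCat.{u} (Alg K)} (k : ℕ) (h : ∀ e : Abelian.Ext S.X₂ Y k, e = 0)
    (h1 : ∃ e : Abelian.Ext S.X₁ Y k, e ≠ 0) : ∃ e : Abelian.Ext S.X₃ Y (k + 1), e ≠ 0 := by
  obtain ⟨e, he⟩ := h1
  refine ⟨hS.extClass.comp e (add_comm 1 k), fun h0 => he ?_⟩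
  obtain ⟨x, hx⟩ := Abelian.Ext.contravariant_sequence_exact₁ hS _ e (add_comm 1 k) h0
  rw [← hx, h x, Abelian.Ext.comp_zero]

lemma ext_retract {X Z Y : ModuleCat.{u} (Alg K)} (r : Retract X Z) (k : ℕ)
    (h1 : ∃ e : Abelian.Ext X Y k, e ≠ 0) : ∃ e : Abelian.Ext Z Y k, e ≠ 0 := by
  obtain ⟨e, he⟩ := h1
  refine ⟨(Abelian.Ext.mk₀ r.r).comp e (zero_add k), fun h0 => he ?_⟩
  rw [← e.mk₀_id_comp, ← r.retract, ← Abelian.Ext.mk₀_comp_mk₀,
    Abelian.Ext.comp_assoc_of_second_deg_zero, h0, Abelian.Ext.comp_zero]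

omit [CharZero K] in
lemma Rep.finite_mod {M : Type u} [AddCommGroup M] [Module K M] [Module.Finite K M]
    (ρ : Rep K M) : Module.Finite (Alg K) (ρ.mod : Type u) := by
  obtain ⟨s, hs⟩ := (Module.Finite.fg_top : (⊤ : Submodule K M).FG)
  let t : Finset (ρ.mod : Type u) := s
  have hts : ∀ x : M, x ∈ s → (show (ρ.mod : Type u) from x) ∈ (t : Set (ρ.mod : Type u)) :=
    fun x hx => hx
  have key : ∀ v : M, v ∈ Submodule.span K (s : Set M) →
      (show (ρ.mod : Type u) from v) ∈ Submodule.span (Alg K) (t : Set (ρ.mod : Type u)) := by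
    intro v hv
    induction hv using Submodule.span_induction with
    | mem x hx => exact Submodule.subset_span (hts x hx)
    | zero => exact Submodule.zero_mem _
    | add x y _ _ hx hy => exact Submodule.add_mem _ hx hy
    | smul c x _ hx =>
      have h1 : (algebraMap K (Alg K) c • (show (ρ.mod : Type u) from x) : ρ.mod) =
          (show (ρ.mod : Type u) from c • x) := by
        rw [Rep.smul_def, AlgHom.commutes]
        rfl
      rw [← h1]
      exact Submodule.smul_mem _ _ hx
  refine ⟨⟨t, ?_⟩⟩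
  rw [eq_top_iff]
  intro v _
  exact key v (by rw [hs]; trivial)

/-- The augmentation. -/
noncomputable def aug (K : Type u) [Field K] : RR K →ₗ[K] K :=
  (ExteriorAlgebra.algebraMapInv (R := K) (M := Fin 2 × Fin 2 → K)).toLinearMap

lemma aug_one : aug K (1 : RR K) = 1 := by simp [aug]

lemma aug_xi (i j : Fin 2) (r : RR K) : aug K (xi i j r) = 0 := by
  simp [aug, xi_apply, ExteriorAlgebra.algebraMapInv]

lemma aug_dR (r : RR K) : aug K (dR r) = 0 := by
  simp [dR_apply, qq_apply, aug_xi]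

lemma aug_pr (j : ℤ) (r : RR K) : aug K (pr j r) = if j = 0 then aug K r else 0 := by
  let S : Submodule K (RR K) :=
    { carrier := {r | ∀ j, aug K (pr j r) = if j = 0 then aug K r else 0}
      add_mem' := fun {a b} ha hb j => by
        rw [map_add, map_add, ha j, hb j, map_add]; split_ifs <;> simp
      zero_mem' := fun j => by simp
      smul_mem' := fun c a ha j => by
        rw [map_smul, map_smul, ha j, map_smul]; split_ifs <;> simp }
  refine RR_top S ?_ ?_ r j
  · intro j
    rw [pr_one]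
    split_ifs <;> simp
  · intro i j r _ k
    rw [pr_xi', aug_xi, aug_xi]
    simp

/-- A functional on level `0`. -/
noncomputable def lev (K : Type u) [Field K] :
    (Fin 2 → Fin 1 → RR K) × (Fin 2 → Fin 1 → RR K) →ₗ[K] K where
  toFun v := aug K (v.1 0 0)
  map_add' v w := by simp
  map_smul' c v := by simp

lemma lev_apply (v) : lev K v = aug K (v.1 0 0) := rfl

lemma lev_isHom : BRep.IsHom (((fock K 1).S (fock_E5 _)).EE (BRep.S_E0 _ _))
    (triv K 0 (by norm_num)) (lev K) where
  E j v := by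
    rw [BRep.EE_E_apply, lev_apply, lev_apply]
    simp only [BRep.S_E, add_sub_cancel_right]
    rw [fock_E_apply, aug_pr]
    change _ = (if j = 0 then LinearMap.id else 0 : K →ₗ[K] K) (aug K (v.1 0 0))
    split_ifs <;> simp
  X i j v := by
    rw [BRep.EE_X_apply, lev_apply]
    simp only [BRep.S_X]
    rw [fock_X_apply, aug_xi]
    rfl
  T v := by
    rw [BRep.EE_T_apply, lev_apply]
    simp only [BRep.S_X, BRep.S_T, Pi.sub_apply, fock_T_apply', Fin.sum_univ_two, Pi.add_apply,
      fock_X_apply, map_sub, map_add, aug_xi, aug_dR]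
    simp
    rfl

theorem ext_ne (n : ℕ) : ∃ e : Abelian.Ext (NN K (n + 1)) (S0 K) (n + 1), e ≠ 0 := by
  induction n with
  | zero =>
    refine ext_step (((fock K 1).S (fock_E5 1)).indSeq_shortExact (BRep.S_E0 _ _)) 0
      (fun e => (good_NN (K := K) 1).ext 0 e) ?_
    refine ⟨Abelian.Ext.mk₀ (Rep.mor (lev_isHom (K := K)).toRep), fun h => ?_⟩
    have h1 : Rep.mor (lev_isHom (K := K)).toRep = 0 := by
      apply Abelian.Ext.homEquiv₀.symm.injective
      rw [Abelian.Ext.homEquiv₀_symm_apply, Abelian.Ext.homEquiv₀_symm_apply,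
        Abelian.Ext.mk₀_zero]
      exact h
    have h2 : lev K (Pi.single 0 (Pi.single 0 1), 0) = 0 := by
      have := Rep.mor_apply (lev_isHom (K := K)).toRep (Pi.single 0 (Pi.single 0 1), 0)
      rw [← this, h1]
      rfl
    rw [lev_apply] at h2
    simp [aug_one] at h2
  | succ n ih =>
    refine ext_step (((fock K (n + 2)).S (fock_E5 (n + 2))).indSeq_shortExact (BRep.S_E0 _ _))
      (n + 1) (fun e => (good_NN (K := K) (n + 2)).ext (n + 1) e) ?_
    obtain ⟨φ, ψ, hφ, hψ, h1, h2⟩ := fock_key (K := K) (n + 1)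
    refine ext_retract (Rep.retract hψ.toRep hφ.toRep h2) (n + 1) ?_
    have hc := cne K (n + 1)
    -- the retract
    let i : (Fin (n + 1) → RR K) →ₗ[K]
        ((Fin 2 → Fin (n + 2) → RR K) × (Fin 2 → Fin (n + 2) → RR K)) :=
      LinearMap.inr K _ _ ∘ₗ ((((n + 1 : ℕ) : K) + 1)⁻¹ • fiota K (n + 1))
    let p : ((Fin 2 → Fin (n + 2) → RR K) × (Fin 2 → Fin (n + 2) → RR K)) →ₗ[K]
        (Fin (n + 1) → RR K) := fpi K (n + 1) ∘ₗ LinearMap.snd K _ _
    have hi : BRep.IsHom ((fock K (n + 1)).S (fock_E5 _)).neg (DV K (n + 1)) i := by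
      have hE := (fiota_isHom (K := K) (n + 1)).E
      have hX := (fiota_isHom (K := K) (n + 1)).X
      have hT := (fiota_isHom (K := K) (n + 1)).T
      refine ⟨?_, ?_, ?_⟩
      · intro j v
        simp [i, BRep.D_E_apply, hE]
      · intro i' j v
        simp [i, BRep.D_X_apply, hX]
      · intro v
        simp [i, BRep.D_T_apply, hT]
    have hp : BRep.IsHom (DV K (n + 1)) ((fock K (n + 1)).S (fock_E5 _)).neg p := by
      have hE := (fpi_isHom (K := K) (n + 1)).E
      have hX := (fpi_isHom (K := K) (n + 1)).X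
      have hT := (fpi_isHom (K := K) (n + 1)).T
      refine ⟨?_, ?_, ?_⟩
      · intro j v
        simp [p, BRep.D_E_apply, hE]
      · intro i' j v
        simp [p, BRep.D_X_apply, hX]
      · intro v
        simp [p, BRep.D_T_apply, hT, fpi_fom]
    have hpi : ∀ v, p (i v) = v := by
      intro v
      simp only [p, i, LinearMap.comp_apply, LinearMap.inr_apply, LinearMap.snd_apply,
        LinearMap.smul_apply, map_smul, fpi_fiota, smul_smul, inv_mul_cancel₀ hc, one_smul]
    refine ext_retract (Rep.retract hi.toRep hp.toRep hpi) (n + 1) ?_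
    exact ext_retract (((fock K (n + 1)).S (fock_E5 _)).negRetract') (n + 1) ih

end Vale.Agent.P176
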