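import Vale.Agent.P176.Alg

/-!
P176.  Modules over `Alg K` from representations; homomorphisms; short exact sequences.
-/

namespace Vale.Agent.P176

open CategoryTheory

universe u

variable {K : Type u} [Field K]

namespace Rep

variable {M : Type u} [AddCommGroup M] [Module K M]
variable {N : Type u} [AddCommGroup N] [Module K N]
variable {P : Type u} [AddCommGroup P] [Module K P]

/-- The module over `Alg K` attached to a representation. -/
noncomputable def mod (ρ : Rep K M) : ModuleCat.{u} (Alg K) :=
  @ModuleCat.of (Alg K) _ M _ (Module.compHom M ρ.hom.toRingHom)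

lemma smul_def (ρ : Rep K M) (a : Alg K) (v : M) :
    (a • (show (ρ.mod : Type u) from v) : ρ.mod) = ρ.hom a v := rfl

/-- A linear map commuting with all operators. -/
structure IsHom (ρ : Rep K M) (σ : Rep K N) (f : M →ₗ[K] N) : Prop where
  E : ∀ j v, f (ρ.E j v) = σ.E j (f v)
  X : ∀ i j v, f (ρ.X i j v) = σ.X i j (f v)
  T : ∀ v, f (ρ.T v) = σ.T (f v)
  A : ∀ m v, f (ρ.A m v) = σ.A m (f v)
  B : ∀ m v, f (ρ.B m v) = σ.B m (f v)

lemma IsHom.hom {ρ : Rep K M} {σ : Rep K N} {f : M →ₗ[K] N} (h : IsHom ρ σ f)
    (a : Alg K) : ∀ v, f (ρ.hom a v) = σ.hom a (f v) := by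
  induction a using Alg.induct with
  | hK c => intro v; simp
  | hg g =>
    intro v
    rw [hom_gen, hom_gen]
    cases g with
    | e j => exact h.E j v
    | x i j => exact h.X i j v
    | t => exact h.T v
    | a m => exact h.A m v
    | b m => exact h.B m v
  | hadd x y hx hy => intro v; simp [hx, hy]
  | hmul x y hx hy => intro v; simp [hx, hy]

/-- The linear map over `Alg K`. -/
noncomputable def lin {ρ : Rep K M} {σ : Rep K N} {f : M →ₗ[K] N} (h : IsHom ρ σ f) :
    (ρ.mod : Type u) →ₗ[Alg K] (σ.mod : Type u) where
  toFun := f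
  map_add' := fun x y => f.map_add x y
  map_smul' := fun a v => h.hom a v

/-- The morphism of modules. -/
noncomputable def mor {ρ : Rep K M} {σ : Rep K N} {f : M →ₗ[K] N} (h : IsHom ρ σ f) :
    ρ.mod ⟶ σ.mod := ConcreteCategory.ofHom (C := ModuleCat.{u} (Alg K)) (lin h)

lemma mor_apply {ρ : Rep K M} {σ : Rep K N} {f : M →ₗ[K] N} (h : IsHom ρ σ f) (v : M) :
    (mor h).hom v = f v := rfl

/-- The short complex attached to two composable homomorphisms with zero composite. -/
noncomputable def seq {ρ : Rep K M} {σ : Rep K N} {τ : Rep K P} {f : M →ₗ[K] N}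
    {g : N →ₗ[K] P} (hf : IsHom ρ σ f) (hg : IsHom σ τ g)
    (h : ∀ y, g y = 0 ↔ ∃ x, f x = y) : ShortComplex (ModuleCat.{u} (Alg K)) :=
  ShortComplex.mk (mor hf) (mor hg) (by
    ext v
    exact (h (f v)).2 ⟨v, rfl⟩)

lemma seq_shortExact {ρ : Rep K M} {σ : Rep K N} {τ : Rep K P} {f : M →ₗ[K] N}
    {g : N →ₗ[K] P} (hf : IsHom ρ σ f) (hg : IsHom σ τ g)
    (h : ∀ y, g y = 0 ↔ ∃ x, f x = y) (hfi : Function.Injective f)
    (hgs : Function.Surjective g) : (seq hf hg h).ShortExact := by
  refine ShortComplex.ShortExact.mk' ?_ ?_ ?_
  · rw [ShortComplex.moduleCat_exact_iff]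
    intro y hy
    exact (h y).1 hy
  · exact (ModuleCat.mono_iff_injective _).2 hfi
  · exact (ModuleCat.epi_iff_surjective _).2 hgs

/-- A retract of modules from linear maps. -/
noncomputable def retract {ρ : Rep K M} {σ : Rep K N} {f : M →ₗ[K] N} {g : N →ₗ[K] M}
    (hf : IsHom ρ σ f) (hg : IsHom σ ρ g) (h : ∀ v, g (f v) = v) : Retract ρ.mod σ.mod where
  i := mor hf
  r := mor hg
  retract := by
    ext v
    exact h v

/-- The representation attached to a module. -/
noncomputable def ofModule (Y : Type u) [AddCommGroup Y] [Module K Y] [Module (Alg K) Y]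
    [IsScalarTower K (Alg K) Y] : Rep K Y where
  E j := Algebra.lsmul K K Y (gen K (Gen.e j))
  X i j := Algebra.lsmul K K Y (gen K (Gen.x i j))
  T := Algebra.lsmul K K Y (gen K Gen.t)
  A m := Algebra.lsmul K K Y (gen K (Gen.a m))
  B m := Algebra.lsmul K K Y (gen K (Gen.b m))
  E_self j v := by
    have := quo_rel (Rel.E_self (K := K) j)
    simp only [map_mul] at this
    simp only [Algebra.lsmul_coe, gen, smul_smul, this]
  E_ne i j h v := by
    have := quo_rel (Rel.E_ne (K := K) i j h)
    simp only [map_mul, map_zero] at this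
    simp only [Algebra.lsmul_coe, gen, smul_smul, this, zero_smul]
  E_out j h v := by
    have := quo_rel (Rel.E_out (K := K) j h)
    simp only [map_zero] at this
    simp only [Algebra.lsmul_coe, gen, this, zero_smul]
  E_sum v := by
    have := quo_rel (Rel.E_sum (K := K))
    simp only [map_sum, map_one] at this
    simp only [Algebra.lsmul_coe, gen, ← Finset.sum_smul, this, one_smul]
  XE i j k v := by
    have := quo_rel (Rel.XE (K := K) i j k)
    simp only [map_mul] at this
    simp only [Algebra.lsmul_coe, gen, smul_smul, this]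
  TE k v := by
    have := quo_rel (Rel.TE (K := K) k)
    simp only [map_mul] at this
    simp only [Algebra.lsmul_coe, gen, smul_smul, this]
  XX i j k l v := by
    have := quo_rel (Rel.XX (K := K) i j k l)
    simp only [map_mul, map_neg] at this
    simp only [Algebra.lsmul_coe, gen, smul_smul, this, neg_smul]
  TT v := by
    have := quo_rel (Rel.TT (K := K))
    simp only [map_mul, map_zero] at this
    simp only [Algebra.lsmul_coe, gen, smul_smul, this, zero_smul]
  TX i j v := by
    have := quo_rel (Rel.TX (K := K) i j)
    simp only [map_mul, map_neg, map_sub, map_sum] at this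
    simp only [Algebra.lsmul_coe, gen, smul_smul, this, neg_smul, sub_smul, Finset.sum_smul]
  AE m k v := by
    have := quo_rel (Rel.AE (K := K) m k)
    simp only [map_mul] at this
    simp only [Algebra.lsmul_coe, gen, smul_smul, this]
  BE m k v := by
    have := quo_rel (Rel.BE (K := K) m k)
    simp only [map_mul] at this
    simp only [Algebra.lsmul_coe, gen, smul_smul, this]
  XA i j m v := by
    have := quo_rel (Rel.XA (K := K) i j m)
    simp only [map_mul, map_add, map_sub] at this
    simp only [Algebra.lsmul_coe, gen, smul_smul, this, add_smul, sub_smul]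
    congr 1
    · congr 1
      split_ifs <;> simp
    · split_ifs <;> simp
  XB i j m v := by
    have := quo_rel (Rel.XB (K := K) i j m)
    simp only [map_mul, map_neg] at this
    simp only [Algebra.lsmul_coe, gen, smul_smul, this, neg_smul]
  TA m v := by
    have := quo_rel (Rel.TA (K := K) m)
    simp only [map_mul, map_sub, map_sum] at this
    simp only [Algebra.lsmul_coe, gen, smul_smul, this, sub_smul, Finset.sum_smul]
  TB m v := by
    have := quo_rel (Rel.TB (K := K) m)
    simp only [map_mul, map_neg, map_add, map_sum] at this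
    simp only [Algebra.lsmul_coe, gen, smul_smul, this, add_smul, neg_smul, Finset.sum_smul]
  AA m l v := by
    have := quo_rel (Rel.AA (K := K) m l)
    simp only [map_mul, map_zero] at this
    simp only [Algebra.lsmul_coe, gen, smul_smul, this, zero_smul]
  AB m l v := by
    have := quo_rel (Rel.AB (K := K) m l)
    simp only [map_mul, map_zero] at this
    simp only [Algebra.lsmul_coe, gen, smul_smul, this, zero_smul]
  BA m l v := by
    have := quo_rel (Rel.BA (K := K) m l)
    simp only [map_mul, map_zero] at this
    simp only [Algebra.lsmul_coe, gen, smul_smul, this, zero_smul]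
  BB m l v := by
    have := quo_rel (Rel.BB (K := K) m l)
    simp only [map_mul, map_zero] at this
    simp only [Algebra.lsmul_coe, gen, smul_smul, this, zero_smul]
  BE0 m v := by
    have := quo_rel (Rel.BE0 (K := K) m)
    simp only [map_mul, map_zero] at this
    simp only [Algebra.lsmul_coe, gen, smul_smul, this, zero_smul]

section OfModule

variable (Y : Type u) [AddCommGroup Y] [Module K Y] [Module (Alg K) Y]
    [IsScalarTower K (Alg K) Y]

lemma ofModule_hom (a : Alg K) : ∀ v : Y, (ofModule (K := K) Y).hom a v = a • v := by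
  induction a using Alg.induct with
  | hK c => intro v; simp
  | hg g =>
    intro v
    rw [hom_gen]
    cases g <;> rfl
  | hadd x y hx hy => intro v; simp [hx, hy, add_smul]
  | hmul x y hx hy => intro v; simp [hx, hy, mul_smul]

/-- The module of `ofModule Y` is `Y`. -/
noncomputable def ofModuleEquiv : ((ofModule (K := K) Y).mod : Type u) ≃ₗ[Alg K] Y where
  toFun := fun y => y
  invFun := fun y => y
  left_inv := fun _ => rfl
  right_inv := fun _ => rfl
  map_add' := fun _ _ => rfl
  map_smul' := fun a v => ofModule_hom Y a v

lemma projective_ofModule [Module.Projective (Alg K) Y] :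
    Projective (ofModule (K := K) Y).mod := by
  have : Module.Projective (Alg K) ((ofModule (K := K) Y).mod : Type u) :=
    Module.Projective.of_equiv (ofModuleEquiv Y).symm
  exact ModuleCat.projective_of_categoryTheory_projective _

end OfModule

end Rep

end Vale.Agent.P176
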