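import Vale.Agent.P176.Key

/-!
P176.  The modules `NN n`.
-/

namespace Vale.Agent.P176

open CategoryTheory

universe u

/-- The module `N_n` in levels `1..5`. -/
noncomputable def NN (K : Type u) [Field K] [CharZero K] (n : ℕ) : ModuleCat.{u} (Alg K) :=
  ((fock K n).S (fock_E5 n)).toRep.mod

end Vale.Agent.P176
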