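import Vale.Agent.P176.Ind

/-!
P176.  Further constructions on representations: sign twist, shift, twist by the dual of the
standard representation, and the doubling `D`.
-/

namespace Vale.Agent.P176

open CategoryTheory

universe u

variable {K : Type u} [Field K]
variable {M : Type u} [AddCommGroup M] [Module K M]
variable {N : Type u} [AddCommGroup N] [Module K N]

namespace BRep

/-- The sign twist. -/
@[simps]
def neg (β : BRep K M) : BRep K M where
  E := β.E
  X i j := - β.X i j
  T := - β.T
  E_self := β.E_self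
  E_ne := β.E_ne
  E_out := β.E_out
  E_sum := β.E_sum
  XE i j k v := by simp [β.XE]
  TE k v := by simp [β.TE]
  XX i j k l v := by simpa using β.XX i j k l v
  TT v := by simp [β.TT]
  TX i j v := by simpa using β.TX i j v

/-- The shift by one level. -/
@[simps]
def S (β : BRep K M) (h5 : ∀ v, β.E 5 v = 0) : BRep K M where
  E j := β.E (j - 1)
  X := β.X
  T := β.T
  E_self _ := β.E_self _
  E_ne i j h := β.E_ne _ _ (by omega)
  E_out j h v := by
    by_cases hj : j = 6
    · subst hj; simpa using h5 v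
    · exact β.E_out _ (by omega) v
  E_sum v := by
    have h1 := β.E_sum v
    have h2 := β.E_out (-1) (by omega) v
    rw [sum_Icc05] at h1 ⊢
    norm_num
    rw [h5, add_zero] at h1
    rw [h2, zero_add, h1]
  XE i j k v := by rw [β.XE]; congr 2; ring
  TE k v := by rw [β.TE]; congr 2; ring
  XX := β.XX
  TT := β.TT
  TX := β.TX

lemma S_E0 (β : BRep K M) (h5) (v : M) : (β.S h5).E 0 v = 0 := by
  simpa using β.E_out (-1) (by omega) v

/-- The twist by the dual of the standard representation. -/
def V (β : BRep K N) : BRep K (Fin 2 → N) where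
  E j :=
    { toFun := fun p => fun m => β.E j (p m)
      map_add' := fun p q => by ext m; simp
      map_smul' := fun c p => by ext m; simp }
  X i j :=
    { toFun := fun p => fun m => β.X i j (p m)
      map_add' := fun p q => by ext m; simp
      map_smul' := fun c p => by ext m; simp }
  T :=
    { toFun := fun p => fun m => β.T (p m) - ∑ q, β.X q m (p q)
      map_add' := fun p q => by
        ext m; simp [Finset.sum_add_distrib]; abel
      map_smul' := fun c p => by
        ext m; simp [smul_sub, smul_add] }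
  E_self j v := by ext m; simp [β.E_self]
  E_ne i j h v := by ext m; simpa using β.E_ne i j h (v m)
  E_out j h v := by ext m; simpa using β.E_out j h (v m)
  E_sum v := by ext m; simpa [Finset.sum_apply] using β.E_sum (v m)
  XE i j k v := by ext m; simp [β.XE]
  TE k v := by ext m; simp [β.XE, β.TE]
  XX i j k l v := by ext m; simpa using β.XX i j k l (v m)
  TT v := by
    ext m
    simp only [LinearMap.coe_mk, AddHom.coe_mk, map_sub, map_add, β.TT, β.TX, Fin.sum_univ_two,
        β.XX 0 m 0 0, β.XX 0 m 1 0, β.XX 1 m 0 1, β.XX 1 m 1 1, Pi.zero_apply]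
    abel
  TX i j v := by
    ext m
    simp only [LinearMap.coe_mk, AddHom.coe_mk, map_sub, map_add, β.TX, Fin.sum_univ_two,
        Pi.sub_apply, Pi.neg_apply, Pi.add_apply]
    rw [β.XX i j 0 m, β.XX i j 1 m]
    abel

lemma V_E_apply (β : BRep K N) (j : ℤ) (v) : β.V.E j v = fun m => β.E j (v m) := rfl

lemma V_X_apply (β : BRep K N) (i j) (v) : β.V.X i j v = fun m => β.X i j (v m) := rfl

lemma V_T_apply (β : BRep K N) (v) : β.V.T v =
    fun m => β.T (v m) - ∑ q, β.X q m (v q) := rfl

lemma V_E5 {β : BRep K N} (h5 : ∀ v, β.E 5 v = 0) (v) : β.V.E 5 v = 0 := by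
  ext m; simp [V_E_apply, h5]

/-- The doubling. -/
def D (β : BRep K M) (h5 : ∀ v, β.E 5 v = 0) (ω : M →ₗ[K] M) (hω : IsHom β β ω) :
    BRep K (M × M) where
  E j := LinearMap.prodMap (β.E j) (β.E (j - 1))
  X i j := LinearMap.prodMap (β.X i j) (- β.X i j)
  T := LinearMap.prod (β.T ∘ₗ LinearMap.fst K M M)
    (ω ∘ₗ LinearMap.fst K M M - β.T ∘ₗ LinearMap.snd K M M)
  E_self j v := by simp [β.E_self]
  E_ne i j h v := by
    ext
    · simpa using β.E_ne i j h v.1
    · simpa using β.E_ne (i - 1) (j - 1) (by omega) v.2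
  E_out j h v := by
    ext
    · simpa using β.E_out j h v.1
    · simpa using (β.S h5).E_out j h v.2
  E_sum v := by
    ext
    · simpa [Prod.fst_sum] using β.E_sum v.1
    · simpa [Prod.snd_sum] using (β.S h5).E_sum v.2
  XE i j k v := by
    ext
    · simp [β.XE]
    · simpa using (β.S h5).XE i j k v.2
  TE k v := by
    have h1 := (β.S h5).TE k v.2
    simp only [S_E, S_T] at h1
    ext
    · simp [β.TE]
    · change ω (β.E k v.1) - β.T (β.E (k - 1) v.2) = β.E (k + 1 - 1) (ω v.1 - β.T v.2)
      rw [h1, map_sub, hω.E, add_sub_cancel_right]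
  XX i j k l v := by
    ext
    · simpa using β.XX i j k l v.1
    · simpa using β.XX i j k l v.2
  TT v := by
    ext
    · simp [β.TT]
    · simp [β.TT, hω.T]
  TX i j v := by
    ext
    · simpa [Prod.fst_sum] using β.TX i j v.1
    · simp [Prod.snd_sum, β.TX i j v.2, hω.X]
      abel

lemma D_E_apply (β : BRep K M) (h5 ω hω) (j : ℤ) (v) : (β.D h5 ω hω).E j v =
    (β.E j v.1, β.E (j - 1) v.2) := rfl

lemma D_X_apply (β : BRep K M) (h5 ω hω) (i j) (v) : (β.D h5 ω hω).X i j v =
    (β.X i j v.1, - β.X i j v.2) := rfl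

lemma D_T_apply (β : BRep K M) (h5 ω hω) (v) : (β.D h5 ω hω).T v =
    (β.T v.1, ω v.1 - β.T v.2) := rfl

/-- Scalar endomorphisms. -/
lemma isHom_smul (β : BRep K M) (c : K) : IsHom β β (c • LinearMap.id) where
  E j v := by simp
  X i j v := by simp
  T v := by simp

/-- The inclusion of the shifted part of the doubling. -/
lemma inr_D_isHom (β : BRep K M) (h5 ω hω) :
    IsHom (β.S h5).neg (β.D h5 ω hω) (LinearMap.inr K M M) where
  E j v := by simp [D_E_apply]
  X i j v := by simp [D_X_apply]
  T v := by simp [D_T_apply]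

/-- The projection of the doubling. -/
lemma fst_D_isHom (β : BRep K M) (h5 ω hω) :
    IsHom (β.D h5 ω hω) β (LinearMap.fst K M M) where
  E j v := by simp [D_E_apply]
  X i j v := by simp [D_X_apply]
  T v := by simp [D_T_apply]

lemma seqD_aux (y : M × M) : LinearMap.fst K M M y = 0 ↔ ∃ x, LinearMap.inr K M M x = y := by
  constructor
  · intro h
    exact ⟨y.2, Prod.ext h.symm rfl⟩
  · rintro ⟨x, rfl⟩
    simp

lemma seqD_shortExact (β : BRep K M) (h5 ω hω) :
    (Rep.seq (β.inr_D_isHom h5 ω hω).toRep (β.fst_D_isHom h5 ω hω).toRep seqD_aux).ShortExact :=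
  Rep.seq_shortExact _ _ _ LinearMap.inr_injective LinearMap.fst_surjective

/-- The sign automorphism. -/
def sgn (β : BRep K M) : M →ₗ[K] M :=
  β.E 0 - β.E 1 + β.E 2 - β.E 3 + β.E 4 - β.E 5

lemma sum6 (β : BRep K M) (v : M) :
    β.E 0 v + (β.E 1 v + (β.E 2 v + (β.E 3 v + (β.E 4 v + β.E 5 v)))) = v := by
  rw [← sum_Icc05 (fun j => β.E j v)]
  exact β.E_sum v

lemma sgn_E (β : BRep K M) (j : ℤ) (v : M) : β.sgn (β.E j v) = β.E j (β.sgn v) := by
  simp only [sgn, LinearMap.sub_apply, LinearMap.add_apply, map_sub, map_add]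
  have h : ∀ i, β.E i (β.E j v) = β.E j (β.E i v) := by
    intro i
    by_cases hij : i = j
    · subst hij; rfl
    · rw [β.E_ne i j hij, β.E_ne j i (Ne.symm hij)]
  rw [h 0, h 1, h 2, h 3, h 4, h 5]

lemma sgn_anti (β : BRep K M) (f : M →ₗ[K] M) (hf : ∀ k v, f (β.E k v) = β.E (k + 1) (f v))
    (v : M) : β.sgn (f v) = - f (β.sgn v) := by
  have h0 : β.E 0 (f v) = 0 := by
    have := hf (-1) v
    rw [β.E_out (-1) (by omega)] at this
    simpa using this.symm
  have h5 : β.E 6 (f v) = 0 := β.E_out _ (by omega) _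
  simp only [sgn, LinearMap.sub_apply, LinearMap.add_apply, map_sub, map_add, hf]
  norm_num
  rw [h0, h5]
  abel

lemma sgn_sgn (β : BRep K M) (v : M) : β.sgn (β.sgn v) = v := by
  have h := β.sum6 v
  have e : ∀ i j, i ≠ j → β.E i (β.E j v) = 0 := fun i j h => β.E_ne i j h v
  simp only [sgn, LinearMap.sub_apply, LinearMap.add_apply, map_sub, map_add, β.E_self]
  simp [e]
  conv_rhs => rw [← h]
  abel

lemma sgn_isHom (β : BRep K M) : IsHom β.neg β β.sgn where
  E j v := β.sgn_E j v
  X i j v := by
    rw [neg_X, LinearMap.neg_apply, map_neg, β.sgn_anti (β.X i j) (β.XE i j), neg_neg]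
  T v := by
    rw [neg_T, LinearMap.neg_apply, map_neg, β.sgn_anti β.T β.TE, neg_neg]

lemma sgn_isHom' (β : BRep K M) : IsHom β β.neg β.sgn where
  E j v := β.sgn_E j v
  X i j v := by
    rw [neg_X, LinearMap.neg_apply, β.sgn_anti (β.X i j) (β.XE i j)]
  T v := by
    rw [neg_T, LinearMap.neg_apply, β.sgn_anti β.T β.TE]

/-- The sign twist is isomorphic to the original. -/
noncomputable def negRetract (β : BRep K M) : Retract β.neg.toRep.mod β.toRep.mod :=
  Rep.retract β.sgn_isHom.toRep β.sgn_isHom'.toRep β.sgn_sgn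

/-- The sign twist is isomorphic to the original. -/
noncomputable def negRetract' (β : BRep K M) : Retract β.toRep.mod β.neg.toRep.mod :=
  Rep.retract β.sgn_isHom'.toRep β.sgn_isHom.toRep β.sgn_sgn

end BRep

end Vale.Agent.P176
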