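import Vale.Agent.P176.Ops

/-!
P176.  Projectivity of the doubling of a free module.
-/

namespace Vale.Agent.P176

open CategoryTheory

universe u

variable {K : Type u} [Field K]
variable {M : Type u} [AddCommGroup M] [Module K M]

/-- A representation which is free in level `0` for the operators `X`. -/
structure RFree (β : BRep K M) (I : Type) where
  u : I → M
  hu : ∀ s, β.E 0 (u s) = u s
  gen : ∀ (S : Submodule K M), (∀ s, u s ∈ S) → (∀ i j v, v ∈ S → β.X i j v ∈ S) → ∀ v, v ∈ S
  lift : ∀ {Y : Type u} [AddCommGroup Y] [Module K Y] (σ : BRep K Y) (y : I → Y),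
    ∃ g : M →ₗ[K] Y, (∀ i j v, g (β.X i j v) = σ.X i j (g v)) ∧ (∀ s, g (u s) = y s)

lemma BRep.E_of_E0 (β : BRep K M) {v : M} (h : β.E 0 v = v) (j : ℤ) :
    β.E j v = if j = 0 then v else 0 := by
  split_ifs with hj
  · rw [hj, h]
  · rw [← h, β.E_ne j 0 hj]

lemma BRep.EX' (β : BRep K M) (i j : Fin 2) (k : ℤ) (v : M) :
    β.E k (β.X i j v) = β.X i j (β.E (k - 1) v) := by
  rw [β.XE, sub_add_cancel]

lemma BRep.ET' (β : BRep K M) (k : ℤ) (v : M) :
    β.E k (β.T v) = β.T (β.E (k - 1) v) := by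
  rw [β.TE, sub_add_cancel]

section

variable {β : BRep K M} {I : Type} (F : RFree β I)
variable {Y : Type u} [AddCommGroup Y] [Module K Y] (σ : Rep K Y) (y : I → Y)
  (hy : ∀ s, σ.E 0 (y s) = y s) (g : M →ₗ[K] Y)
  (hX : ∀ i j v, g (β.X i j v) = σ.X i j (g v)) (hg : ∀ s, g (F.u s) = y s)

include hy hX hg

lemma RFree.lift_E (j : ℤ) (v : M) : g (β.E j v) = σ.E j (g v) := by
  let S : Submodule K M :=
    { carrier := {v | ∀ j, g (β.E j v) = σ.E j (g v)}
      add_mem' := fun {a b} ha hb j => by simp [ha j, hb j]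
      zero_mem' := fun j => by simp
      smul_mem' := fun c a ha j => by simp [ha j] }
  refine F.gen S ?_ ?_ v j
  · intro s j
    rw [β.E_of_E0 (F.hu s), hg, σ.E_of_E0 (hy s)]
    split_ifs <;> simp [hg]
  · intro i j v hv k
    rw [β.EX', hX, hX, σ.EX', hv (k - 1)]

lemma RFree.lift_A (m : Fin 2) (v : M) : σ.A m (g v) = 0 ∧ σ.B m (g v) = 0 := by
  let S : Submodule K M :=
    { carrier := {v | ∀ m, σ.A m (g v) = 0 ∧ σ.B m (g v) = 0}
      add_mem' := fun {a b} ha hb m => by simp [ha m, hb m]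
      zero_mem' := fun m => by simp
      smul_mem' := fun c a ha m => by simp [ha m] }
  refine F.gen S ?_ ?_ v m
  · intro s m
    rw [hg, ← hy s]
    refine ⟨?_, σ.BE0 _ _⟩
    rw [σ.AE]
    exact σ.E_out _ (by norm_num) _
  · intro i j v hv m
    rw [hX]
    have h1 := σ.XA i j m (g v)
    have h2 := σ.XB i j m (g v)
    rw [(hv m).1, (hv m).2, (hv i).2] at h1
    rw [(hv m).2] at h2
    constructor
    · simpa using h1.symm
    · simpa using h2.symm

omit hX hg in
lemma RFree.lift_all (hX : ∀ i j v, g (β.X i j v) = σ.X i j (g v))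
    (hg : ∀ s, g (F.u s) = y s) (c : K) (hc : c ≠ 0) (h5) :
    Rep.IsHom (β.D h5 (c • LinearMap.id) (β.isHom_smul c)).toRep σ
      (g ∘ₗ LinearMap.fst K M M +
        c⁻¹ • ((σ.T ∘ₗ g - g ∘ₗ β.T) ∘ₗ LinearMap.snd K M M)) := by
  have hE := F.lift_E σ y hy g hX hg
  have hA := F.lift_A σ y hy g hX hg
  have hAT : ∀ m v, σ.A m (σ.T (g v)) = 0 := by
    intro m v
    have h := σ.TA m (g v)
    rw [(hA m v).1, map_zero] at h
    have h2 : ∀ l, σ.A l (σ.X m l (g v)) = 0 := fun l => by rw [← hX]; exact (hA _ _).1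
    simp only [h2, Finset.sum_const_zero, sub_zero] at h
    exact h.symm
  have hBT : ∀ m v, σ.B m (σ.T (g v)) = 0 := by
    intro m v
    have h := σ.TB m (g v)
    rw [(hA m v).2, map_zero] at h
    have h2 : ∀ l, σ.B l (σ.X m l (g v)) = 0 := fun l => by rw [← hX]; exact (hA _ _).2
    simp only [h2, Finset.sum_const_zero, add_zero] at h
    simpa using h.symm
  refine ⟨?_, ?_, ?_, ?_, ?_⟩
  · intro j v
    simp only [BRep.toRep_E, BRep.D_E_apply, LinearMap.add_apply, LinearMap.comp_apply,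
      LinearMap.fst_apply, LinearMap.smul_apply, LinearMap.snd_apply, LinearMap.sub_apply, hE,
      map_add, map_smul, map_sub, σ.ET', β.ET']
    rw [← hE, ← hE, ← β.ET', ← hE, β.ET']
  · intro i j v
    simp only [BRep.toRep_X, BRep.D_X_apply, LinearMap.add_apply, LinearMap.comp_apply,
      LinearMap.fst_apply, LinearMap.smul_apply, LinearMap.snd_apply, LinearMap.sub_apply, hX,
      map_add, map_smul, map_sub, map_neg, σ.TX, β.TX, map_sum]
    congr 2
    abel
  · intro v
    simp only [BRep.toRep_T, BRep.D_T_apply, LinearMap.add_apply, LinearMap.comp_apply,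
      LinearMap.fst_apply, LinearMap.smul_apply, LinearMap.snd_apply, LinearMap.sub_apply, hX,
      map_add, map_smul, map_sub, σ.TT, β.TT, LinearMap.id_apply, map_zero, smul_sub, smul_smul,
      inv_mul_cancel₀ hc, one_smul]
    abel
  · intro m v
    have h1 : σ.A m (g v.1) = 0 := (hA _ _).1
    have h2 : σ.A m (g (β.T v.2)) = 0 := (hA _ _).1
    simp [h1, h2, hAT]
  · intro m v
    have h1 : σ.B m (g v.1) = 0 := (hA _ _).2
    have h2 : σ.B m (g (β.T v.2)) = 0 := (hA _ _).2
    simp [h1, h2, hBT]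

end

/-- The doubling of a free module by a nonzero scalar is projective. -/
theorem proj_RFree {β : BRep K M} {I : Type} [Fintype I] (F : RFree β I) (c : K)
    (hc : c ≠ 0) (h5) :
    HasProjectiveDimensionLT (β.D h5 (c • LinearMap.id) (β.isHom_smul c)).toRep.mod 1 := by
  classical
  let Y := I → Alg K
  let σ : Rep K Y := Rep.ofModule Y
  let y : I → Y := fun s => Pi.single s (gen K (Gen.e 0))
  have he : gen K (Gen.e 0) * gen K (Gen.e 0) = (gen K (Gen.e 0) : Alg K) := by
    have := quo_rel (Rel.E_self (K := K) 0)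
    rw [map_mul] at this
    exact this
  have hy : ∀ s, σ.E 0 (y s) = y s := by
    intro s
    change gen K (Gen.e 0) • (Pi.single s (gen K (Gen.e 0)) : I → Alg K) =
      Pi.single s (gen K (Gen.e 0))
    rw [← Pi.single_smul, smul_eq_mul, he]
  obtain ⟨g, hX, hg⟩ := F.lift σ.toBRep y
  have hG := F.lift_all σ y hy g hX hg c hc h5
  set G : M × M →ₗ[K] Y := g ∘ₗ LinearMap.fst K M M +
        c⁻¹ • ((σ.T ∘ₗ g - g ∘ₗ β.T) ∘ₗ LinearMap.snd K M M) with hGdef
  set ρ := (β.D h5 (c • LinearMap.id) (β.isHom_smul c)).toRep with hρ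
  -- the map back
  let P : Y →ₗ[K] M × M :=
    { toFun := fun f => ∑ s, ρ.hom (f s) (F.u s, 0)
      map_add' := fun a b => by
        rw [← Finset.sum_add_distrib]
        refine Finset.sum_congr rfl fun s _ => ?_
        rw [Pi.add_apply, map_add, LinearMap.add_apply]
      map_smul' := fun a b => by
        rw [RingHom.id_apply, Finset.smul_sum]
        refine Finset.sum_congr rfl fun s _ => ?_
        rw [Pi.smul_apply, map_smul, LinearMap.smul_apply] }
  have hPdef : ∀ f, P f = ∑ s, ρ.hom (f s) (F.u s, 0) := fun f => rfl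
  have hPg : ∀ (γ : Gen) (f : Y), P (gen K γ • f) = ρ.op γ (P f) := by
    intro γ f
    rw [hPdef, hPdef, map_sum]
    refine Finset.sum_congr rfl fun s _ => ?_
    rw [Pi.smul_apply, smul_eq_mul, map_mul, Rep.hom_gen]
    rfl
  have hP : Rep.IsHom σ ρ P :=
    ⟨fun j v => hPg (Gen.e j) v, fun i j v => hPg (Gen.x i j) v, fun v => hPg Gen.t v,
      fun m v => hPg (Gen.a m) v, fun m v => hPg (Gen.b m) v⟩
  have h1 : ∀ a : M, P (G (a, 0)) = (a, 0) := by
    intro a
    refine F.gen (LinearMap.eqLocus (P ∘ₗ G ∘ₗ LinearMap.inl K M M) (LinearMap.inl K M M))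
      ?_ ?_ a
    · intro s
      change P (G (F.u s, 0)) = (F.u s, 0)
      have : G (F.u s, 0) = y s := by simp [hGdef, hg]
      rw [this, hPdef, Finset.sum_eq_single s]
      · change ρ.hom ((Pi.single s (gen K (Gen.e 0)) : I → Alg K) s) (F.u s, 0) = _
        rw [Pi.single_eq_same, Rep.hom_gen]
        change ρ.E 0 _ = _
        simp [hρ, BRep.D_E_apply, F.hu s]
      · intro t _ hts
        change ρ.hom ((Pi.single s (gen K (Gen.e 0)) : I → Alg K) t) (F.u t, 0) = _
        rw [Pi.single_eq_of_ne hts, map_zero]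
        rfl
      · simp
    · intro i j v hv
      change P (G (v, 0)) = (v, 0) at hv
      change P (G (β.X i j v, 0)) = (β.X i j v, 0)
      have : ((β.X i j v, 0) : M × M) = ρ.X i j (v, 0) := by
        simp [hρ, BRep.D_X_apply]
      rw [this, hG.X, hP.X, hv]
  have h2 : ∀ v : M × M, P (G v) = v := by
    intro v
    have h3 : ρ.T (v.2, 0) = (β.T v.2, c • v.2) := by
      simp [hρ, BRep.D_T_apply]
    have h4 : v = (v.1, 0) + c⁻¹ • (ρ.T (v.2, 0) - (β.T v.2, 0)) := by
      rw [h3]
      ext <;> simp [smul_smul, inv_mul_cancel₀ hc]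
    conv_lhs => rw [h4]
    rw [map_add, map_add, map_smul, map_smul, map_sub, map_sub, hG.T, hP.T, h1, h1, h1, ← h4]
  have hproj : Projective σ.mod := Rep.projective_ofModule Y
  exact (Rep.retract hG hP h2).hasProjectiveDimensionLT 1

end Vale.Agent.P176
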