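import Vale.Agent.P176.NN
import Vale.Agent.P176.Good

/-!
P176.  Finiteness of the projective dimension of `NN n`.
-/

namespace Vale.Agent.P176

open CategoryTheory

universe u

section

variable {K : Type u} [Field K]
variable {M : Type u} [AddCommGroup M] [Module K M]
variable {N : Type u} [AddCommGroup N] [Module K N]

lemma BRep.inl_prod_isHom (β : BRep K M) (γ : BRep K N) :
    IsHom β (β.prod γ) (LinearMap.inl K M N) where
  E j v := by simp
  X i j v := by simp
  T v := by simp

lemma BRep.snd_prod_isHom (β : BRep K M) (γ : BRep K N) :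
    IsHom (β.prod γ) γ (LinearMap.snd K M N) where
  E j v := by simp
  X i j v := by simp
  T v := by simp

lemma prod_aux (y : M × N) : LinearMap.snd K M N y = 0 ↔ ∃ x, LinearMap.inl K M N x = y := by
  constructor
  · intro h
    exact ⟨y.1, Prod.ext rfl h.symm⟩
  · rintro ⟨x, rfl⟩
    simp

lemma pd_prod (β : BRep K M) (γ : BRep K N) (k : ℕ)
    (h1 : HasProjectiveDimensionLT β.toRep.mod k) (h2 : HasProjectiveDimensionLT γ.toRep.mod k) :
    HasProjectiveDimensionLT (β.prod γ).toRep.mod k :=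
  (Rep.seq_shortExact (β.inl_prod_isHom γ).toRep (β.snd_prod_isHom γ).toRep prod_aux
    LinearMap.inl_injective LinearMap.snd_surjective).hasProjectiveDimensionLT_X₂ k h1 h2

end

variable {K : Type u} [Field K] [CharZero K]

instance finite_RR : Module.Finite K (RR K) := by
  let b := (Pi.basisFun K (Fin 2 × Fin 2)).reindex (Fintype.equivFin (Fin 2 × Fin 2))
  exact Module.Finite.of_basis b.ExteriorAlgebra

lemma cne (K : Type u) [Field K] [CharZero K] (n : ℕ) : (n : K) + 1 ≠ 0 := by
  exact_mod_cast Nat.succ_ne_zero n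

lemma fpi_fom (n : ℕ) (v) : fpi K n (fom K n v) = 0 := by
  rw [fom_apply, map_sub, fpi_fiota, map_smul, sub_self]

lemma fom_fiota (n : ℕ) (v) : fom K n (fiota K n v) = 0 := by
  rw [fom_apply, fpi_fiota, map_smul, sub_self]

lemma fom_fom (n : ℕ) (v) : fom K n (fom K n v) = - (((n : K) + 1) • fom K n v) := by
  rw [fom_apply n (fom K n v), fpi_fom, map_zero, zero_sub]

/-- The splitting map. -/
noncomputable def spl (K : Type u) [Field K] [CharZero K] (n : ℕ) :
    (Fin 2 → Fin (n + 1) → RR K) × (Fin 2 → Fin (n + 1) → RR K) →ₗ[K]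
    ((Fin 2 → Fin (n + 1) → RR K) × (Fin 2 → Fin (n + 1) → RR K)) ×
      ((Fin n → RR K) × (Fin n → RR K)) where
  toFun v := ((-((n : K) + 1)⁻¹ • fom K n v.1, -((n : K) + 1)⁻¹ • fom K n v.2),
    (fpi K n v.1, fpi K n v.2))
  map_add' v w := by simp
  map_smul' c v := by simp [smul_comm c]

/-- The retraction. -/
noncomputable def ret (K : Type u) [Field K] [CharZero K] (n : ℕ) :
    ((Fin 2 → Fin (n + 1) → RR K) × (Fin 2 → Fin (n + 1) → RR K)) ×
      ((Fin n → RR K) × (Fin n → RR K)) →ₗ[K]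
    (Fin 2 → Fin (n + 1) → RR K) × (Fin 2 → Fin (n + 1) → RR K) where
  toFun w := (-((n : K) + 1)⁻¹ • fom K n w.1.1 + ((n : K) + 1)⁻¹ • fiota K n w.2.1,
    -((n : K) + 1)⁻¹ • fom K n w.1.2 + ((n : K) + 1)⁻¹ • fiota K n w.2.2)
  map_add' v w := by simp; constructor <;> abel
  map_smul' c v := by simp [smul_comm c]

lemma spl_apply (n : ℕ) (v) : spl K n v =
    ((-((n : K) + 1)⁻¹ • fom K n v.1, -((n : K) + 1)⁻¹ • fom K n v.2),
    (fpi K n v.1, fpi K n v.2)) := rfl

lemma ret_apply (n : ℕ) (w) : ret K n w =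
    (-((n : K) + 1)⁻¹ • fom K n w.1.1 + ((n : K) + 1)⁻¹ • fiota K n w.2.1,
    -((n : K) + 1)⁻¹ • fom K n w.1.2 + ((n : K) + 1)⁻¹ • fiota K n w.2.2) := rfl

lemma ret_spl (n : ℕ) (v) : ret K n (spl K n v) = v := by
  have hc := cne K n
  have h : ∀ a : Fin 2 → Fin (n + 1) → RR K, -((n : K) + 1)⁻¹ • fom K n
      (-((n : K) + 1)⁻¹ • fom K n a) + ((n : K) + 1)⁻¹ • fiota K n (fpi K n a) = a := by
    intro a
    have h1 : -((n : K) + 1)⁻¹ • fom K n (-((n : K) + 1)⁻¹ • fom K n a) =
        -((n : K) + 1)⁻¹ • fom K n a := by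
      rw [map_smul, fom_fom, smul_neg, smul_neg, neg_smul, neg_neg, smul_smul, smul_smul,
        mul_assoc, neg_mul, inv_mul_cancel₀ hc, mul_neg, mul_one]
    rw [h1, fom_apply, smul_sub, smul_smul, neg_mul, inv_mul_cancel₀ hc, neg_smul, neg_smul,
      one_smul]
    abel
  rw [ret_apply, spl_apply]
  exact Prod.ext (h _) (h _)

/-- The middle module `D(V fock, om)`. -/
noncomputable abbrev DV (K : Type u) [Field K] [CharZero K] (n : ℕ) :
    BRep K ((Fin 2 → Fin (n + 1) → RR K) × (Fin 2 → Fin (n + 1) → RR K)) :=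
  (fock K (n + 1)).V.D (BRep.V_E5 (fock_E5 _)) (fom K n) (fom_isHom n)

/-- The projective module `D(V fock, -(n+1))`. -/
noncomputable abbrev DC (K : Type u) [Field K] [CharZero K] (n : ℕ) :
    BRep K ((Fin 2 → Fin (n + 1) → RR K) × (Fin 2 → Fin (n + 1) → RR K)) :=
  (fock K (n + 1)).V.D (BRep.V_E5 (fock_E5 _)) ((-((n : K) + 1)) • LinearMap.id)
    (BRep.isHom_smul _ _)

/-- The module `D(fock, c)`. -/
noncomputable abbrev DF (K : Type u) [Field K] [CharZero K] (n : ℕ) (c : K) :
    BRep K ((Fin n → RR K) × (Fin n → RR K)) :=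
  (fock K n).D (fock_E5 _) (c • LinearMap.id) (BRep.isHom_smul _ _)

lemma spl_isHom (n : ℕ) : BRep.IsHom (DV K n) ((DC K n).prod (DF K n 0)) (spl K n) where
  E j v := by
    have h1 := (fom_isHom (K := K) n).E
    have h2 := (fpi_isHom (K := K) n).E
    simp only [spl_apply, BRep.D_E_apply, BRep.prod_E, LinearMap.prodMap_apply, h1, h2, map_smul]
  X i j v := by
    have h1 := (fom_isHom (K := K) n).X
    have h2 := (fpi_isHom (K := K) n).X
    simp only [spl_apply, BRep.D_X_apply, BRep.prod_X, LinearMap.prodMap_apply, h1, h2, map_smul,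
      map_neg, smul_neg]
  T v := by
    have h1 := (fom_isHom (K := K) n).T
    have h2 := (fpi_isHom (K := K) n).T
    simp only [spl_apply, BRep.D_T_apply, BRep.prod_T, LinearMap.prodMap_apply, h1, h2, map_smul,
      map_sub, fom_fom, fpi_fom, LinearMap.smul_apply, LinearMap.id_apply, zero_smul]
    refine Prod.ext (Prod.ext rfl ?_) rfl
    simp only [smul_sub, smul_neg, neg_smul, smul_smul]

lemma ret_isHom (n : ℕ) : BRep.IsHom ((DC K n).prod (DF K n 0)) (DV K n) (ret K n) where
  E j v := by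
    have h1 := (fom_isHom (K := K) n).E
    have h2 := (fiota_isHom (K := K) n).E
    simp only [ret_apply, BRep.D_E_apply, BRep.prod_E, LinearMap.prodMap_apply, h1, h2, map_smul,
      map_add]
  X i j v := by
    have h1 := (fom_isHom (K := K) n).X
    have h2 := (fiota_isHom (K := K) n).X
    simp only [ret_apply, BRep.D_X_apply, BRep.prod_X, LinearMap.prodMap_apply, h1, h2, map_smul,
      map_neg, smul_neg, map_add, neg_add]
  T v := by
    have h1 := (fom_isHom (K := K) n).T
    have h2 := (fiota_isHom (K := K) n).T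
    simp only [ret_apply, BRep.D_T_apply, BRep.prod_T, LinearMap.prodMap_apply, h1, h2, map_smul,
      map_sub, fom_fom, fom_fiota, LinearMap.smul_apply, LinearMap.id_apply, zero_smul, map_add]
    refine Prod.ext rfl ?_
    simp only [smul_sub, smul_neg, neg_smul, smul_smul, LinearMap.zero_apply, map_zero, smul_zero]
    abel

lemma pd_neg {M : Type u} [AddCommGroup M] [Module K M] (β : BRep K M) (k : ℕ)
    (h : HasProjectiveDimensionLT β.toRep.mod k) : HasProjectiveDimensionLT β.neg.toRep.mod k :=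
  β.negRetract.hasProjectiveDimensionLT k

lemma pd_fock (n k : ℕ) (h : HasProjectiveDimensionLT (NN K n) k) :
    HasProjectiveDimensionLT (fock K n).toRep.mod (k + 1) := by
  have h1 : HasProjectiveDimensionLT ((fock K n).S (fock_E5 n)).neg.toRep.mod k :=
    pd_neg _ _ h
  have h2 : HasProjectiveDimensionLT (DF K n 1).toRep.mod 1 :=
    proj_RFree (fockFree n) 1 one_ne_zero (fock_E5 n)
  have h3 : HasProjectiveDimensionLT (DF K n 1).toRep.mod (k + 1) :=
    hasProjectiveDimensionLT_of_ge _ 1 (k + 1) (by omega)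
  exact ((fock K n).seqD_shortExact (fock_E5 n) _ _).hasProjectiveDimensionLT_X₃ k h1 h3

lemma pd_DF0 (n k : ℕ) (h : HasProjectiveDimensionLT (NN K n) k) :
    HasProjectiveDimensionLT (DF K n 0).toRep.mod (k + 1) := by
  have h1 : HasProjectiveDimensionLT ((fock K n).S (fock_E5 n)).neg.toRep.mod k :=
    pd_neg _ _ h
  have h2 : HasProjectiveDimensionLT ((fock K n).S (fock_E5 n)).neg.toRep.mod (k + 1) :=
    hasProjectiveDimensionLT_of_ge _ k (k + 1) (by omega)
  exact ((fock K n).seqD_shortExact (fock_E5 n) _ _).hasProjectiveDimensionLT_X₂ (k + 1) h2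
    (pd_fock n k h)

lemma pd_DV (n k : ℕ) (h : HasProjectiveDimensionLT (NN K n) k) :
    HasProjectiveDimensionLT (DV K n).toRep.mod (k + 1) := by
  have h1 : HasProjectiveDimensionLT (DC K n).toRep.mod 1 :=
    proj_RFree (fockVFree (n + 1)) (-((n : K) + 1)) (neg_ne_zero.2 (cne K n)) _
  have h2 : HasProjectiveDimensionLT (DC K n).toRep.mod (k + 1) :=
    hasProjectiveDimensionLT_of_ge _ 1 (k + 1) (by omega)
  have h3 := pd_prod _ _ (k + 1) h2 (pd_DF0 n k h)
  exact (Rep.retract (spl_isHom n).toRep (ret_isHom n).toRep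
    (ret_spl n)).hasProjectiveDimensionLT (k + 1)

lemma good_NN (n : ℕ) :
    Good 6 (((fock K n).S (fock_E5 n)).ind (BRep.S_E0 _ _)).mod :=
  good_ind _ _

/-- Finiteness of the projective dimension. -/
theorem exists_pd (n : ℕ) : ∃ k, HasProjectiveDimensionLT (NN K n) k := by
  induction n with
  | zero =>
    refine ⟨0, ?_⟩
    have : Subsingleton (NN K 0 : Type u) :=
      inferInstanceAs (Subsingleton (Fin 0 → RR K))
    exact (ModuleCat.isZero_of_subsingleton _).hasProjectiveDimensionLT_zero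
  | succ n ih =>
    obtain ⟨k, hk⟩ := ih
    obtain ⟨φ, ψ, hφ, hψ, h1, h2⟩ := fock_key (K := K) n
    have h3 := pd_DV n k hk
    have h4 := (Rep.retract hφ.toRep hψ.toRep h1).hasProjectiveDimensionLT (k + 1)
    refine ⟨k + 6 + 1, ?_⟩
    have h5 : HasProjectiveDimensionLT
        (((fock K (n + 1)).S (fock_E5 (n + 1))).EE (BRep.S_E0 _ _)).toRep.mod (k + 6) :=
      hasProjectiveDimensionLT_of_ge _ (k + 1) (k + 6) (by omega)
    have h6 := (good_NN (K := K) (n + 1)).pd
    have h7 : HasProjectiveDimensionLT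
        (((fock K (n + 1)).S (fock_E5 (n + 1))).ind (BRep.S_E0 _ _)).mod (k + 6 + 1) :=
      hasProjectiveDimensionLT_of_ge _ 6 (k + 6 + 1) (by omega)
    exact (((fock K (n + 1)).S (fock_E5 (n + 1))).indSeq_shortExact
      (BRep.S_E0 _ _)).hasProjectiveDimensionLT_X₃ (k + 6) h5 h7

end Vale.Agent.P176
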